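import Vale.Agent.P086.Ode

open scoped ComplexOrder InnerProductSpace ComplexConjugate NNReal
open Filter Topology Set

set_option linter.unusedSimpArgs false
set_option linter.unusedSectionVars false

namespace Vale.Agent.P086
open Vale.Agent.P085
variable {M : Type*} [CStarAlgebra M] {ι : Type*} [DecidableEq ι] {R : Type*}

def Reg (T : Tr M) (ρ : ι → M) : Prop := ∀ g, g ≠ 1 → T.τ (pe ρ g) = 0

noncomputable def fA (s : Finset R) (c : R → ℂ) (w : R → FreeGroup ι) (ρ : ι → M) : M :=
  ∑ r ∈ s, c r • pe ρ (w r)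

noncomputable def fS (s : Finset R) (c : R → ℂ) (w : R → FreeGroup ι) (ρ : ι → M) : M :=
  fA s c w ρ - star (fA s c w ρ)

def c1 (ρ : ι → M) (y : ι) (S : M) (a : ι × Bool) : M :=
  if a.1 = y then (if a.2 then S else -(star (ρ y) * S * ρ y)) else 0

def coc (ρ : ι → M) (y : ι) (S : M) : List (ι × Bool) → M
  | [] => 0
  | a :: L => c1 ρ y S a + lt1 ρ a * coc ρ y S L * star (lt1 ρ a)

lemma deriv_evL {ρ : ι → M} {y : ι} {α : ℝ → M} {S : M} {I : Set ℝ} {t : ℝ}
    (hu : Un (Function.update ρ y (α t))) (hS : star S = -S)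
    (hα : HasDerivWithinAt α (S * α t) I t) (L : List (ι × Bool)) :
    HasDerivWithinAt (fun t => evL (Function.update ρ y (α t)) L)
      (coc (Function.update ρ y (α t)) y S L * evL (Function.update ρ y (α t)) L) I t := by
  induction L with
  | nil => simpa [evL, coc] using hasDerivWithinAt_const t I (1 : M)
  | cons a L ih =>
    have h1 : HasDerivWithinAt (fun t => lt1 (Function.update ρ y (α t)) a)
        (c1 (Function.update ρ y (α t)) y S a * lt1 (Function.update ρ y (α t)) a) I t := by
      obtain ⟨i, e⟩ := a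
      by_cases hi : i = y
      · subst hi
        have hy : α t ∈ unitary M := by simpa using hu i
        cases e
        · have := hα.star
          simp only [lt1, c1, Function.update_self, if_true, Bool.false_eq_true, if_false]
          refine this.congr_deriv ?_
          rw [star_mul, hS, neg_mul, mul_assoc, Unitary.mul_star_self_of_mem hy]; simp
        · simpa [lt1, c1] using hα
      · simpa [lt1, c1, hi] using hasDerivWithinAt_const t I _
    simp only [evL, coc]
    refine (h1.mul ih).congr_deriv ?_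
    have e := Unitary.star_mul_self_of_mem (hu.lt1_mem a)
    rw [add_mul, mul_assoc (_ * _) (star _), ← mul_assoc (star _), e, one_mul]
    simp only [mul_assoc]

noncomputable def sig (s : Finset R) (c : R → ℂ) (w : R → FreeGroup ι) (m : FreeGroup ι → ℂ)
    (p q : FreeGroup ι) : ℂ :=
  ∑ r ∈ s, (c r * m (p * w r * q) - conj (c r) * m (p * (w r)⁻¹ * q))

noncomputable def Del (s : Finset R) (c : R → ℂ) (w : R → FreeGroup ι) (y : ι)
    (m : FreeGroup ι → ℂ) : FreeGroup ι → List (ι × Bool) → ℂ
  | _, [] => 0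
  | p, a :: L => (if a.1 = y then (if a.2 then sig s c w m p (FreeGroup.mk (a :: L)) else
      - sig s c w m (p * FreeGroup.mk [a]) (FreeGroup.mk L)) else 0) +
      Del s c w y m (p * FreeGroup.mk [a]) L

variable (s : Finset R) (c : R → ℂ) (w : R → FreeGroup ι) (y : ι)

lemma sig_eq (T : Tr M) {ρ : ι → M} (hu : Un ρ) (p q : FreeGroup ι) :
    T.τ (pe ρ p * fS s c w ρ * pe ρ q) = sig s c w (fun g => T.τ (pe ρ g)) p q := by
  simp only [fS, fA, sig, star_sum, star_smul, mul_sub, sub_mul, Finset.mul_sum, Finset.sum_mul,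
    map_sub, map_sum, mul_smul_comm, smul_mul_assoc, map_smul, hu.pe_mul, hu.pe_inv, smul_eq_mul,
    Finset.sum_sub_distrib, Complex.star_def]

lemma del_eq (T : Tr M) {ρ : ι → M} (hu : Un ρ) (p : FreeGroup ι) (L : List (ι × Bool)) :
    T.τ (pe ρ p * (coc ρ y (fS s c w ρ) L * evL ρ L)) = Del s c w y (fun g => T.τ (pe ρ g)) p L := by
  induction L generalizing p with
  | nil => simp [coc, Del]
  | cons a L ih =>
    have e := Unitary.star_mul_self_of_mem (hu.lt1_mem a)
    simp only [coc, Del, evL]
    rw [← ih, add_mul, mul_add, map_add, mul_assoc (_ * _) (star _), ← mul_assoc (star _), e,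
      one_mul, hu.pe_mul, ← hu.lt1_eq]
    congr 1
    · obtain ⟨i, b⟩ := a
      by_cases hi : i = y
      · subst hi
        cases b
        · simp only [c1, if_true, Bool.false_eq_true, if_false, ← sig_eq s c w T hu, hu.pe_mul,
            hu.pe_mk, evL, lt1, mul_one, neg_mul, mul_neg, map_neg, mul_assoc]
          rw [← mul_assoc (ρ i), Unitary.mul_star_self_of_mem (hu i), one_mul]
        · simp only [c1, if_true, ← sig_eq s c w T hu, hu.pe_mk, evL, mul_assoc]
      · simp [c1, hi]
    · simp only [mul_assoc]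

lemma del_sub (m m' : FreeGroup ι → ℂ) (p : FreeGroup ι) (L : List (ι × Bool)) :
    Del s c w y (fun g => m g - m' g) p L = Del s c w y m p L - Del s c w y m' p L := by
  have k : ∀ p q, sig s c w (fun g => m g - m' g) p q = sig s c w m p q - sig s c w m' p q := by
    intro p q
    simp only [sig, ← Finset.sum_sub_distrib]
    exact Finset.sum_congr rfl fun r _ => by ring
  induction L generalizing p with
  | nil => simp [Del]
  | cons a L ih =>
    simp only [Del, ih, k]
    split_ifs <;> ring

lemma del_bound {L0 N : ℕ} (hw : ∀ r ∈ s, (w r).norm ≤ L0) {m : FreeGroup ι → ℂ} {β : ℝ}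
    (hm : ∀ h, h.norm ≤ N → ‖m h‖ ≤ β) (p : FreeGroup ι) (L : List (ι × Bool))
    (hN : p.norm + L.length + L0 ≤ N) :
    ‖Del s c w y m p L‖ ≤ L.length * ((2 * ∑ r ∈ s, ‖c r‖) * β) := by
  have hβ : 0 ≤ β := (norm_nonneg _).trans (hm 1 (by simp))
  have k : ∀ p q : FreeGroup ι, p.norm + q.norm + L0 ≤ N →
      ‖sig s c w m p q‖ ≤ (2 * ∑ r ∈ s, ‖c r‖) * β := by
    intro p q h
    rw [sig, Finset.mul_sum, Finset.sum_mul]
    refine norm_sum_le_of_le _ fun r hr => (norm_sub_le _ _).trans ?_
    have a1 : (p * w r * q).norm ≤ N := by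
      have := FreeGroup.norm_mul_le (p * w r) q
      have := FreeGroup.norm_mul_le p (w r)
      have := hw r hr
      omega
    have a2 : (p * (w r)⁻¹ * q).norm ≤ N := by
      have := FreeGroup.norm_mul_le (p * (w r)⁻¹) q
      have := FreeGroup.norm_mul_le p (w r)⁻¹
      have := hw r hr
      rw [FreeGroup.norm_inv_eq] at *
      omega
    rw [norm_mul, norm_mul, Complex.norm_conj]
    nlinarith [hm _ a1, hm _ a2, norm_nonneg (c r)]
  induction L generalizing p with
  | nil => simp [Del]
  | cons a L ih =>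
    have a1 : (p * FreeGroup.mk [a]).norm ≤ p.norm + 1 :=
      (FreeGroup.norm_mul_le _ _).trans (Nat.add_le_add_left FreeGroup.norm_mk_le _)
    have a2 : (FreeGroup.mk L).norm ≤ L.length := FreeGroup.norm_mk_le
    have a3 : (FreeGroup.mk (a :: L)).norm ≤ (a :: L).length := FreeGroup.norm_mk_le
    simp only [List.length_cons] at hN a3
    have a4 := ih (p * FreeGroup.mk [a]) (by omega)
    simp only [Del, List.length_cons]
    refine (norm_add_le _ _).trans ?_
    have : 0 ≤ (2 * ∑ r ∈ s, ‖c r‖) * β := by positivity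
    push_cast
    split_ifs
    · linarith [k p (FreeGroup.mk (a :: L)) (by omega)]
    · rw [norm_neg]; linarith [k (p * FreeGroup.mk [a]) (FreeGroup.mk L) (by omega)]
    · rw [norm_zero]; linarith

open Classical in
noncomputable def del1 (g : FreeGroup ι) : ℂ := if g = 1 then 1 else 0

lemma del_zero {v : ι} (hw : ∀ r ∈ s, ∃ (h : FreeGroup ι) (n : ℤ), w r = h * FreeGroup.of v ^ n * h⁻¹)
    (p : FreeGroup ι) (L : List (ι × Bool))
    (hL : ∀ (h : FreeGroup ι) (n : ℤ), p * FreeGroup.mk L ≠ h * FreeGroup.of v ^ n * h⁻¹) :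
    Del s c w y del1 p L = 0 := by
  have k : ∀ p q : FreeGroup ι, (∀ (h : FreeGroup ι) (n : ℤ), p * q ≠ h * FreeGroup.of v ^ n * h⁻¹) →
      sig s c w del1 p q = 0 := by
    intro p q hq
    refine Finset.sum_eq_zero fun r hr => ?_
    obtain ⟨h, n, e⟩ := hw r hr
    have a1 : p * w r * q ≠ 1 := fun h1 => hq (p * h) (-n) (by
      rw [eq_inv_of_mul_eq_one_right h1, e]; group)
    have a2 : p * (w r)⁻¹ * q ≠ 1 := fun h1 => hq (p * h) n (by
      rw [eq_inv_of_mul_eq_one_right h1, e]; group)
    simp [del1, a1, a2]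
  induction L generalizing p with
  | nil => rfl
  | cons a L ih =>
    have e : p * FreeGroup.mk [a] * FreeGroup.mk L = p * FreeGroup.mk (a :: L) := by
      rw [mul_assoc]; rfl
    simp only [Del]
    rw [ih _ (by rwa [e]), k _ _ hL, k _ _ (by rwa [e])]
    simp

noncomputable def τL (T : Tr M) : M →L[ℝ] ℂ :=
  (T.τ.mkContinuous 1 fun x => by simpa using T.τ_le_norm x).restrictScalars ℝ

lemma Reg.eq {T : Tr M} {ρ : ι → M} (h : Reg T ρ) (g : FreeGroup ι) : T.τ (pe ρ g) = del1 g := by
  unfold del1
  split_ifs with e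
  · rw [e, pe_one, T.one]
  · exact h g e

theorem reg_flow (T : Tr M) {v : ι} (hv : v ≠ y)
    (hw : ∀ r ∈ s, ∃ (h : FreeGroup ι) (n : ℤ), w r = h * FreeGroup.of v ^ n * h⁻¹)
    {ρ : ι → M} {α : ℝ → M} (hu : ∀ t ∈ Icc (0 : ℝ) 1, Un (Function.update ρ y (α t)))
    (hα : ∀ t ∈ Icc (0 : ℝ) 1,
      HasDerivWithinAt α (fS s c w (Function.update ρ y (α t)) * α t) (Icc 0 1) t)
    (h0 : Reg T (Function.update ρ y (α 0))) :
    ∀ t ∈ Icc (0 : ℝ) 1, Reg T (Function.update ρ y (α t)) := by
  set π : ℝ → ι → M := fun t => Function.update ρ y (α t) with hπ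
  have hd : ∀ L, ∀ t ∈ Icc (0 : ℝ) 1, HasDerivWithinAt (fun t => T.τ (evL (π t) L))
      (Del s c w y (fun g => T.τ (pe (π t) g)) 1 L) (Icc 0 1) t := by
    intro L t ht
    have := (τL T).hasFDerivAt.comp_hasDerivWithinAt t
      (deriv_evL (hu t ht) (by simp [fS]) (hα t ht) L)
    rw [← del_eq s c w y T (hu t ht), pe_one, one_mul]
    exact this
  have z0 : (0 : ℝ) ∈ Icc (0 : ℝ) 1 := left_mem_Icc.2 zero_le_one
  have hB : ∀ L, Del s c w y del1 1 L = 0 := by
    intro L
    by_cases hL : ∀ (h : FreeGroup ι) (n : ℤ), 1 * FreeGroup.mk L ≠ h * FreeGroup.of v ^ n * h⁻¹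
    · exact del_zero s c w y hw 1 L hL
    push Not at hL
    obtain ⟨h, n, e⟩ := hL
    rw [one_mul] at e
    have a1 := hd L 0 z0
    have a2 : (fun g => T.τ (pe (π 0) g)) = del1 := funext h0.eq
    rw [a2] at a1
    have a3 : ∀ t ∈ Icc (0 : ℝ) 1, T.τ (evL (π t) L) = T.τ (pe (π 0) (FreeGroup.of v ^ n)) := by
      intro t ht
      rw [← (hu t ht).pe_mk, e, (hu t ht).pe_mul, (hu t ht).pe_mul, T.tr, ← mul_assoc,
        (hu t ht).pe_inv, Unitary.star_mul_self_of_mem ((hu t ht).pe_mem h), one_mul,
        (hu t ht).pe_zpow, (hu 0 z0).pe_zpow]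
      simp only [Function.update_of_ne hv]
    have a4 := (hasDerivWithinAt_const (0 : ℝ) (Icc (0 : ℝ) 1)
      (T.τ (pe (π 0) (FreeGroup.of v ^ n)))).congr a3 (a3 0 z0)
    exact (uniqueDiffOn_Icc zero_lt_one 0 z0).eq_deriv _ a1 a4
  obtain ⟨L0, hL0⟩ : ∃ L0, ∀ r ∈ s, (w r).norm ≤ L0 :=
    ⟨s.sup fun r => (w r).norm, fun r hr => Finset.le_sup (f := fun r => (w r).norm) hr⟩
  set C0 := 2 * ∑ r ∈ s, ‖c r‖ with hC0
  have C0n : 0 ≤ C0 := by positivity
  have step : ∀ a ∈ Icc (0 : ℝ) 1, Reg T (π a) → ∀ t ∈ Icc a 1,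
      C0 * (t - a) * Real.exp L0 ≤ 1 / 2 → Reg T (π t) := by
    intro a ha hr
    have sub : Icc a 1 ⊆ Icc 0 1 := Icc_subset_Icc_left ha.1
    have key : ∀ n : ℕ, ∀ L : List (ι × Bool), ∀ t ∈ Icc a 1,
        ‖T.τ (evL (π t) L) - del1 (FreeGroup.mk L)‖ ≤
          2 * (C0 * (t - a)) ^ n * ((L.length + n * L0 : ℝ) ^ n / n.factorial) := by
      intro n
      induction n with
      | zero =>
        intro L t ht
        have := T.nontriv
        have a1 := (T.τ_le_norm _).trans
          (CStarRing.norm_of_mem_unitary ((hu t (sub ht)).evL_mem L)).le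
        have a2 : ‖del1 (FreeGroup.mk L)‖ ≤ 1 := by unfold del1; split_ifs <;> simp
        simp only [pow_zero, Nat.factorial_zero, Nat.cast_one, div_one, mul_one]
        linarith [norm_sub_le (T.τ (evL (π t) L)) (del1 (FreeGroup.mk L))]
      | succ n ih =>
        intro L t ht
        set K : ℝ := L.length * C0 * 2 * C0 ^ n *
          ((L.length + (n + 1) * L0 : ℝ) ^ n / n.factorial) with hK
        have b := image_norm_le_of_norm_deriv_right_le_deriv_boundary
          (f := fun t => T.τ (evL (π t) L) - del1 (FreeGroup.mk L)) (a := a) (b := 1)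
          (f' := fun t => Del s c w y (fun g => T.τ (pe (π t) g) - del1 g) 1 L)
          (fun t ht => (((hd L t (sub ht)).sub_const _).continuousWithinAt).mono sub)
          (fun t ht => by
            rw [del_sub, hB, sub_zero]
            exact ((hd L t (sub (Ico_subset_Icc_self ht))).sub_const _).mono_of_mem_nhdsWithin
              (Icc_mem_nhdsGE_of_mem ⟨ha.1.trans ht.1, ht.2⟩))
          (B := fun t => K * ((t - a) ^ (n + 1) / (n + 1))) (B' := fun t => K * (t - a) ^ n)
          (by
            have := hr.eq (FreeGroup.mk L)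
            rw [(hu a ha).pe_mk] at this
            simp only [hπ, this]; simp)
          (fun t => by
            have := ((((hasDerivAt_id t).sub_const a).pow (n + 1)).div_const (n + 1)).const_mul K
            refine this.congr_deriv ?_
            simp only [id, Nat.add_sub_cancel, mul_one]
            push_cast
            field_simp)
          (fun t ht => by
            have h0 : 0 ≤ t - a := sub_nonneg.2 ht.1
            refine (del_bound s c w y hL0 (N := L.length + L0)
              (β := 2 * (C0 * (t - a)) ^ n * ((L.length + (n + 1) * L0 : ℝ) ^ n / n.factorial))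
              (fun h hh => ?_) 1 L (by simp)).trans (le_of_eq ?_)
            · have := ih h.toWord t (Ico_subset_Icc_self ht)
              rw [FreeGroup.mk_toWord] at this
              refine this.trans ?_
              have : (h.toWord.length : ℝ) ≤ L.length + L0 := by exact_mod_cast hh
              have : (h.toWord.length + n * L0 : ℝ) ≤ L.length + (n + 1) * L0 := by linarith
              gcongr
            · rw [hK, ← hC0, mul_pow C0]; ring) ht
        refine b.trans ?_
        have h0 : 0 ≤ t - a := sub_nonneg.2 ht.1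
        have e : K * ((t - a) ^ (n + 1) / (n + 1)) = 2 * (C0 * (t - a)) ^ (n + 1) *
            (L.length * (L.length + (n + 1) * L0 : ℝ) ^ n / (n + 1).factorial) := by
          rw [hK, Nat.factorial_succ, mul_pow C0]; push_cast; field_simp; ring
        rw [e]
        push_cast
        rw [pow_succ' (L.length + (n + 1) * L0 : ℝ)]
        gcongr
        exact le_add_of_nonneg_right (by positivity)
    intro t ht hs g hg
    have h0 : 0 ≤ t - a := sub_nonneg.2 ht.1
    have t1 := (tendsto_pow_atTop_nhds_zero_of_lt_one (r := (1 / 2 : ℝ)) (by norm_num)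
      (by norm_num)).const_mul (2 * Real.exp g.toWord.length)
    rw [mul_zero] at t1
    refine norm_le_zero_iff.1 (ge_of_tendsto' t1 fun n => ?_)
    have := key n g.toWord t ht
    rw [FreeGroup.mk_toWord, del1, if_neg hg, sub_zero] at this
    refine this.trans ?_
    have a1 := Real.pow_div_factorial_le_exp (g.toWord.length + n * L0 : ℝ) (by positivity) n
    rw [Real.exp_add, Real.exp_nat_mul] at a1
    have a2 : (C0 * (t - a) * Real.exp L0) ^ n ≤ (1 / 2) ^ n := by gcongr
    calc _ ≤ 2 * (C0 * (t - a)) ^ n * (Real.exp g.toWord.length * Real.exp L0 ^ n) := by gcongr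
      _ = 2 * Real.exp g.toWord.length * (C0 * (t - a) * Real.exp L0) ^ n := by
        rw [mul_pow _ (Real.exp L0)]; ring
      _ ≤ _ := by gcongr
  set T0 := 1 / 2 / (C0 * Real.exp L0 + 1) with hT0
  have T0p : 0 < T0 := by positivity
  have all : ∀ k : ℕ, ∀ t ∈ Icc (0 : ℝ) 1, t ≤ k * T0 → Reg T (π t) := by
    intro k
    induction k with
    | zero =>
      intro t ht h
      have : t = 0 := le_antisymm (by simpa using h) ht.1
      rw [this]; exact h0
    | succ k ih =>
      intro t ht h
      by_cases hk : t ≤ k * T0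
      · exact ih t ht hk
      push Not at hk
      have hk0 : (k * T0 : ℝ) ∈ Icc (0 : ℝ) 1 := ⟨by positivity, hk.le.trans ht.2⟩
      refine step _ hk0 (ih _ hk0 le_rfl) t ⟨hk.le, ht.2⟩ ?_
      have a1 : t - k * T0 ≤ T0 := by push_cast at h; linarith
      have a2 : T0 * (C0 * Real.exp L0 + 1) = 1 / 2 := by rw [hT0]; field_simp
      have a3 : C0 * Real.exp L0 * (t - k * T0) ≤ C0 * Real.exp L0 * T0 := by gcongr
      nlinarith
  intro t ht
  obtain ⟨k, hk⟩ := exists_nat_ge (t / T0)
  exact all k t ht ((div_le_iff₀ T0p).1 hk)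

theorem flow (T : Tr M) {v : ι} (hv : v ≠ y)
    (hw : ∀ r ∈ s, ∃ (h : FreeGroup ι) (n : ℤ), w r = h * FreeGroup.of v ^ n * h⁻¹)
    {ρ : ι → M} (hu : Un ρ) (hr : Reg T ρ) :
    ∃ α : ℝ → M, α 0 = ρ y ∧ (∀ t ∈ Icc (0 : ℝ) 1, α t ∈ unitary M ∧
      Reg T (Function.update ρ y (α t)) ∧
      HasDerivWithinAt α (fS s c w (Function.update ρ y (α t)) * α t) (Icc 0 1) t) ∧
      ∀ P : StarSubalgebra ℂ M, IsClosed (P : Set M) → (∀ i, Function.update ρ y (α 1) i ∈ P) →
        ∀ i, ρ i ∈ P := by
  have := T.nontriv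
  let f : M → M := fun x => fS s c w (Function.update ρ y (rad x)) * rad x
  have hA : BL fun x => fA s c w (Function.update ρ y (rad x)) :=
    BL.sum s fun r => (bl_evL ρ y bl_rad _).smul _
  obtain ⟨K, L, hK, hL⟩ : BL f := (hA.sub hA.str).mul bl_rad
  obtain ⟨α, a0, hα⟩ := ode_ex hK hL ⟨0, by simp⟩ (ρ y)
  have hun : ∀ t ∈ Icc (0 : ℝ) 1, α t ∈ unitary M := by
    have := constant_of_has_deriv_right_zero (f := fun t => star (α t) * α t) (a := 0) (b := 1)
      (fun t ht => ((hα t ht).star.mul (hα t ht)).continuousWithinAt) (fun t ht => by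
        have := ((hα t (Ico_subset_Icc_self ht)).star.mul
          (hα t (Ico_subset_Icc_self ht))).mono_of_mem_nhdsWithin (Icc_mem_nhdsGE_of_mem ht)
        refine this.congr_deriv ?_
        have e : star (fS s c w (Function.update ρ y (rad (α t)))) =
            -fS s c w (Function.update ρ y (rad (α t))) := by simp [fS]
        simp only [f, star_mul, e]
        generalize fS s c w (Function.update ρ y (rad (α t))) = S
        simp [rad, star_smul, mul_assoc])
    intro t ht
    have e1 : star (α t) * α t = 1 := by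
      rw [this t ht]; change star (α 0) * α 0 = 1
      rw [a0]; exact Unitary.star_mul_self_of_mem (hu y)
    refine Unitary.mem_iff.2 ⟨e1, ?_⟩
    have e2 : star (1 - α t * star (α t)) * (1 - α t * star (α t)) = 1 - α t * star (α t) := by
      simp only [star_sub, star_one, star_mul, star_star, sub_mul, mul_sub, one_mul, mul_one]
      rw [mul_assoc, ← mul_assoc (star (α t)), e1, one_mul]; simp
    have := T.faith (1 - α t * star (α t)) (by rw [e2, map_sub, T.tr, e1, sub_self])
    exact (sub_eq_zero.1 this).symm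
  have hα' : ∀ t ∈ Icc (0 : ℝ) 1,
      HasDerivWithinAt α (fS s c w (Function.update ρ y (α t)) * α t) (Icc 0 1) t := fun t ht => by
    simpa only [f, rad_eq (CStarRing.norm_of_mem_unitary (hun t ht)).le] using hα t ht
  have a0' : α 0 = ρ y := a0
  have hreg := reg_flow s c w y T hv hw (fun t ht => hu.update y (hun t ht)) hα'
    (by rw [a0', Function.update_eq_self]; exact hr)
  refine ⟨α, a0, fun t ht => ⟨hun t ht, hreg t ht, hα' t ht⟩, fun P hP h i => ?_⟩
  by_cases hi : i = y
  · rw [hi, ← a0']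
    refine ode_back hK hL hα P hP (fun x hx => ?_) (by simpa using h y)
    have h1 : rad x ∈ P := P.smul_mem hx _
    have h2 : fA s c w (Function.update ρ y (rad x)) ∈ P :=
      sum_mem fun r _ => P.smul_mem (evL_mem (fun j => by
        by_cases hj : j = y
        · subst hj; simpa using h1
        · simpa [hj] using h j) _) _
    exact mul_mem (sub_mem h2 (star_mem h2)) h1
  · simpa [hi] using h i

end Vale.Agent.P086
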