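import Vale.Agent.P086.Key

open scoped ComplexOrder InnerProductSpace ComplexConjugate
open Filter Topology Set

set_option linter.unusedSimpArgs false
set_option linter.unusedSectionVars false

namespace Vale.Agent.P086
open Vale.Agent.P085
variable {M : Type*} [CStarAlgebra M] {ι : Type*} [DecidableEq ι]

def Gen (T : Tr M) (ρ : ι → M) : Prop :=
  ∀ P : StarSubalgebra ℂ M, T.Cl2 P → (∀ i, ρ i ∈ P) → ∀ x, x ∈ P

lemma evL_lip (T : Tr M) {ρ ρ' : ι → M} (h : Un ρ) (h' : Un ρ') {δ : ℝ}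
    (hδ : ∀ i, T.n2 (ρ i - ρ' i) ≤ δ) (L : List (ι × Bool)) :
    T.n2 (evL ρ L - evL ρ' L) ≤ L.length * δ := by
  induction L with
  | nil => simp [evL]
  | cons a L ih =>
    have e : evL ρ (a :: L) - evL ρ' (a :: L) =
        lt1 ρ a * (evL ρ L - evL ρ' L) + (lt1 ρ a - lt1 ρ' a) * evL ρ' L := by
      simp only [evL]; noncomm_ring
    have b : T.n2 (lt1 ρ a - lt1 ρ' a) ≤ δ := by
      unfold lt1; split_ifs
      · exact hδ _
      · rw [← star_sub, T.n2_star]; exact hδ _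
    rw [e]
    refine (T.n2_add_le _ _).trans ?_
    rw [T.n2_unit_left (Unitary.star_mul_self_of_mem (h.lt1_mem a)),
      T.n2_unit_right (Unitary.mul_star_self_of_mem (h'.evL_mem L)), List.length_cons]
    push_cast; linarith

lemma approx (T : Tr M) {ρ : ι → M} (h : Un ρ) (hg : Gen T ρ) (x : M) :
    ∀ ε > 0, ∃ p ∈ Submodule.span ℂ (range (pe ρ)), T.n2 (p - x) < ε := by
  have hm : ∀ p ∈ Submodule.span ℂ (range (pe ρ)), ∀ q ∈ Submodule.span ℂ (range (pe ρ)),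
      p * q ∈ Submodule.span ℂ (range (pe ρ)) := by
    intro p hp q hq
    have := Submodule.mul_mem_mul hp hq
    rw [Submodule.span_mul_span] at this
    refine Submodule.span_mono ?_ this
    rintro _ ⟨_, ⟨g, rfl⟩, _, ⟨k, rfl⟩, rfl⟩
    exact ⟨g * k, h.pe_mul g k⟩
  have hs : ∀ p ∈ Submodule.span ℂ (range (pe ρ)), star p ∈ Submodule.span ℂ (range (pe ρ)) := by
    intro p hp
    induction hp using Submodule.span_induction with
    | zero => simp
    | add x y _ _ hx hy => rw [star_add]; exact add_mem hx hy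
    | smul c x _ hx => rw [star_smul]; exact Submodule.smul_mem _ _ hx
    | mem x hx =>
      obtain ⟨g, rfl⟩ := hx
      exact Submodule.subset_span ⟨g⁻¹, h.pe_inv g⟩
  have h0 : ∀ p ∈ Submodule.span ℂ (range (pe ρ)),
      ∀ ε > 0, ∃ q ∈ Submodule.span ℂ (range (pe ρ)), T.n2 (q - p) < ε :=
    fun p hp ε hε => ⟨p, hp, by simpa using hε⟩
  let P : StarSubalgebra ℂ M :=
    { carrier := {x | ∀ ε > 0, ∃ p ∈ Submodule.span ℂ (range (pe ρ)), T.n2 (p - x) < ε}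
      mul_mem' := fun {x y} hx hy ε hε => by
        obtain ⟨p, hp, a1⟩ := hx (ε / 2 / (‖y‖ + 1)) (by positivity)
        obtain ⟨q, hq, a2⟩ := hy (ε / 2 / (‖p‖ + 1)) (by positivity)
        refine ⟨p * q, hm p hp q hq, ?_⟩
        have e : p * q - x * y = p * (q - y) + (p - x) * y := by noncomm_ring
        rw [lt_div_iff₀ (by positivity)] at a1 a2
        rw [e]
        nlinarith [T.n2_add_le (p * (q - y)) ((p - x) * y), T.n2_mul_left p (q - y),
          T.n2_mul_right (p - x) y, T.n2_nonneg (q - y), T.n2_nonneg (p - x)]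
      add_mem' := fun {x y} hx hy ε hε => by
        obtain ⟨p, hp, a1⟩ := hx (ε / 2) (by positivity)
        obtain ⟨q, hq, a2⟩ := hy (ε / 2) (by positivity)
        refine ⟨p + q, add_mem hp hq, ?_⟩
        rw [add_sub_add_comm]
        linarith [T.n2_add_le (p - x) (q - y)]
      algebraMap_mem' := fun c => h0 _ (by
        rw [Algebra.algebraMap_eq_smul_one]
        exact Submodule.smul_mem _ _ (Submodule.subset_span ⟨1, pe_one ρ⟩))
      star_mem' := fun {x} hx ε hε => by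
        obtain ⟨p, hp, a1⟩ := hx ε hε
        exact ⟨star p, hs p hp, by rwa [← star_sub, T.n2_star]⟩ }
  refine hg P (fun f z R hf _ hl ε hε => ?_)
    (fun i => h0 _ (Submodule.subset_span ⟨_, h.pe_of i⟩)) x
  obtain ⟨n, hn⟩ := (hl.eventually (gt_mem_nhds (half_pos hε))).exists
  obtain ⟨p, hp, a1⟩ := hf n (ε / 2) (half_pos hε)
  exact ⟨p, hp, by linarith [T.n2_tri p (f n) z]⟩

lemma polyspan (T : Tr M) {ρ : ι → M} {p : M} (hp : p ∈ Submodule.span ℂ (range (pe ρ))) :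
    ∃ (φ : (ι → M) → M) (L : ℝ), φ ρ = p ∧ 0 ≤ L ∧ (∀ σ σ', Un σ → Un σ' → ∀ δ,
      (∀ i, T.n2 (σ i - σ' i) ≤ δ) → T.n2 (φ σ - φ σ') ≤ L * δ) ∧
      ∀ (P : StarSubalgebra ℂ M) σ, (∀ i, σ i ∈ P) → φ σ ∈ P := by
  induction hp using Submodule.span_induction with
  | zero => exact ⟨0, 0, rfl, le_rfl, by simp, fun P _ _ => zero_mem P⟩
  | add x y _ _ hx hy =>
    obtain ⟨φ, L, rfl, a1, a2, a3⟩ := hx
    obtain ⟨φ', L', rfl, b1, b2, b3⟩ := hy
    refine ⟨φ + φ', L + L', rfl, by positivity, fun σ σ' h h' δ hδ => ?_,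
      fun P σ h => add_mem (a3 P σ h) (b3 P σ h)⟩
    rw [Pi.add_apply, Pi.add_apply, add_sub_add_comm]
    linarith [T.n2_add_le (φ σ - φ σ') (φ' σ - φ' σ'), a2 σ σ' h h' δ hδ, b2 σ σ' h h' δ hδ]
  | smul c x _ hx =>
    obtain ⟨φ, L, rfl, a1, a2, a3⟩ := hx
    refine ⟨c • φ, ‖c‖ * L, rfl, by positivity, fun σ σ' h h' δ hδ => ?_,
      fun P σ h => P.smul_mem (a3 P σ h) c⟩
    rw [Pi.smul_apply, Pi.smul_apply, ← smul_sub, T.n2_smul, mul_assoc]
    exact mul_le_mul_of_nonneg_left (a2 σ σ' h h' δ hδ) (norm_nonneg _)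
  | mem x hx =>
    obtain ⟨g, rfl⟩ := hx
    exact ⟨fun σ => pe σ g, g.toWord.length, rfl, by positivity,
      fun σ σ' h h' δ hδ => evL_lip T h h' hδ _, fun P σ h => evL_mem h _⟩

def Good (T : Tr M) (c d : M) (ρ : Fin 4 → M) : Prop :=
  Un ρ ∧ Reg T ρ ∧ Gen T ρ ∧ ρ 0 = c ∧ ρ 1 = d

lemma step (T : Tr M) {c d : M} {ρ : Fin 4 → M} (h : Good T c d ρ) (x : M) {r ε : ℝ} (hr : 0 < r)
    (hε : 0 < ε) : ∃ ρ', Good T c d ρ' ∧ T.n2 (ρ' 2 - ρ 2) < r ∧ ∃ (f : M → M) (L : ℝ),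
      (∀ y ∈ unitary M, ∀ y' ∈ unitary M, T.n2 (f y - f y') ≤ L * T.n2 (y - y')) ∧
      (∀ (P : StarSubalgebra ℂ M) y, c ∈ P → d ∈ P → y ∈ P → f y ∈ P) ∧
      T.n2 (f (ρ' 2) - x) < ε := by
  obtain ⟨hu, hreg, hg, rfl, rfl⟩ := h
  obtain ⟨p, hp, a1⟩ := approx T hu hg x (ε / 2) (half_pos hε)
  obtain ⟨φ, L, rfl, L0, hL, hP⟩ := polyspan T hp
  have hδ : 0 < min (r / 2) (ε / 2 / (L + 1)) := by positivity
  obtain ⟨ρ', B, u', r', e0, e1, b2, b3, g'⟩ := key T hu hreg hδ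
  have ut : ∀ y ∈ unitary M, ∀ z ∈ unitary M, Un ![ρ 0, ρ 1, y, z] := fun y hy z hz i => by
    fin_cases i
    exacts [hu 0, hu 1, hy, hz]
  have uq : ∀ y ∈ unitary M, Un ![ρ 0, ρ 1, y, pe ![ρ 0, ρ 1, y, 1] (zz B)] := fun y hy =>
    ut y hy _ ((ut y hy 1 (one_mem _)).pe_mem _)
  refine ⟨ρ', ⟨u', r', fun P hP h => hg P hP (g' P hP.isClosed h), e0, e1⟩,
    by linarith [min_le_left (r / 2) (ε / 2 / (L + 1))],
    fun y => φ ![ρ 0, ρ 1, y, pe ![ρ 0, ρ 1, y, 1] (zz B)], L * ((zz B).toWord.length + 1),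
    fun y hy y' hy' => ?_, fun P y h0 h1 h2 => hP P _ fun i => ?_, ?_⟩
  · rw [mul_assoc]
    have n0 := T.n2_nonneg (y - y')
    have n1 : 0 ≤ ((zz B).toWord.length : ℝ) * T.n2 (y - y') := by positivity
    refine hL _ _ (uq y hy) (uq y' hy') _ fun i => ?_
    fin_cases i
    · simp; positivity
    · simp; positivity
    · simp; linarith
    · have := evL_lip T (ut y hy 1 (one_mem _)) (ut y' hy' 1 (one_mem _)) (δ := T.n2 (y - y'))
        (fun i => by fin_cases i <;> simp [n0]) (zz B).toWord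
      simp [pe]; linarith
  · fin_cases i
    exacts [h0, h1, h2, evL_mem (fun i => by fin_cases i; exacts [h0, h1, h2, one_mem _]) _]
  · have := hL _ _ (uq _ (u' 2)) hu (min (r / 2) (ε / 2 / (L + 1))) (fun i => by
      fin_cases i
      · simpa using hδ.le
      · simpa using hδ.le
      · exact b2
      · rw [(pe_aa (ut _ (u' 2) 1 (one_mem _)) u' e0.symm e1.symm).2 rfl]; exact b3)
    have a2 := min_le_right (r / 2) (ε / 2 / (L + 1))
    rw [le_div_iff₀ (by positivity)] at a2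
    nlinarith [T.n2_tri (φ ![ρ 0, ρ 1, ρ' 2, pe ![ρ 0, ρ 1, ρ' 2, 1] (zz B)]) (φ ρ) x]

theorem drop {T : Tr M} (hc : T.Cpl) (ξ : ℕ → M) (hξ : ∀ x, ∀ ε > 0, ∃ k, T.n2 (x - ξ k) < ε)
    {ρ : Fin 4 → M} (hu : Un ρ) (hr : Reg T ρ) (hg : Gen T ρ) :
    ∃ σ : Fin 3 → M, Un σ ∧ Reg T σ ∧ Gen T σ := by
  have := T.nontriv
  let S : Set T.H := {η | ∃ ρ', Good T (ρ 0) (ρ 1) ρ' ∧ η = T.toH (ρ' 2)}
  have hK := hc.isComplete 1
  have hS : closure S ⊆ {ξ : T.H | ‖T.toH.symm ξ‖ ≤ 1} := closure_minimal (by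
    rintro _ ⟨ρ', h, rfl⟩
    exact (CStarRing.norm_of_mem_unitary (h.1 2)).le) hK.isClosed
  have : CompleteSpace (closure S) := by
    rw [completeSpace_coe_iff_isComplete]
    intro f hf hfs
    obtain ⟨x, -, hx⟩ := hK f hf (hfs.trans (principal_mono.2 hS))
    have := hf.1
    exact ⟨x, isClosed_closure.mem_of_tendsto (f := id) hx (le_principal_iff.1 hfs), hx⟩
  have : Nonempty (closure S) := ⟨⟨_, subset_closure ⟨ρ, ⟨hu, hr, hg, rfl, rfl⟩, rfl⟩⟩⟩
  let c : closure S → M := fun η => T.toH.symm η.1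
  have hd : ∀ y y' : closure S, dist y y' = T.n2 (c y - c y') := fun y y' => by
    rw [Subtype.dist_eq, dist_eq_norm]; rfl
  have sq : ∀ y : closure S, ∃ u : ℕ → Fin 4 → M, (∀ n, Good T (ρ 0) (ρ 1) (u n)) ∧
      T.Lim (fun n => u n 2) (c y) := fun y => by
    obtain ⟨u, h1, h2⟩ := mem_closure_iff_seq_limit.1 y.2
    choose v h3 h4 using h1
    refine ⟨v, h3, ?_⟩
    rw [Tr.lim_iff]
    simp only [← h4]; exact h2
  have cu : ∀ y, c y ∈ unitary M := fun y => by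
    obtain ⟨u, h, hl⟩ := sq y
    rw [Unitary.mem_iff]
    constructor
    · refine Tr.Lim.unique T (Tr.Lim.mul T (Tr.Lim.str T hl) hl (R := 1) fun n => ?_) ?_
      · rw [norm_star]; exact (CStarRing.norm_of_mem_unitary ((h n).1 2)).le
      · simpa only [Unitary.star_mul_self_of_mem ((h _).1 2)] using T.lim_const 1
    · refine Tr.Lim.unique T (Tr.Lim.mul T hl (Tr.Lim.str T hl) (R := 1) fun n => ?_) ?_
      · exact (CStarRing.norm_of_mem_unitary ((h n).1 2)).le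
      · simpa only [Unitary.mul_star_self_of_mem ((h _).1 2)] using T.lim_const 1
  let O : ℕ × ℕ → Set (closure S) := fun t => {y | ∃ (f : M → M) (L : ℝ),
      (∀ y ∈ unitary M, ∀ y' ∈ unitary M, T.n2 (f y - f y') ≤ L * T.n2 (y - y')) ∧
      (∀ (P : StarSubalgebra ℂ M) y, ρ 0 ∈ P → ρ 1 ∈ P → y ∈ P → f y ∈ P) ∧
      T.n2 (f (c y) - ξ t.1) < 1 / ((t.2 : ℝ) + 1)}
  have hO : ∀ t, IsOpen (O t) := by
    intro t
    rw [isOpen_iff_mem_nhds]
    rintro y ⟨f, L, h1, h2, h3⟩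
    have hf : Continuous fun y : closure S => ‖T.toH (f (c y)) - T.toH (ξ t.1)‖ := by
      refine Continuous.norm (Continuous.sub ?_ continuous_const)
      refine (LipschitzWith.of_dist_le' (K := L) fun y y' => ?_).continuous
      rw [dist_eq_norm, ← map_sub, hd]
      exact h1 _ (cu y) _ (cu y')
    filter_upwards [hf.continuousAt.eventually_lt continuousAt_const h3] with z hz
    exact ⟨f, L, h1, h2, hz⟩
  have hD : ∀ t, Dense (O t) := by
    intro t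
    rw [Metric.dense_iff]
    intro y r hr
    obtain ⟨_, ⟨ρ1, g1, rfl⟩, a1⟩ := Metric.mem_closure_iff.1 y.2 (r / 2) (half_pos hr)
    obtain ⟨ρ2, g2, a2, h⟩ := step T g1 (ξ t.1) (half_pos hr)
      (ε := 1 / ((t.2 : ℝ) + 1)) (by positivity)
    refine ⟨⟨T.toH (ρ2 2), subset_closure ⟨ρ2, g2, rfl⟩⟩, ?_, h⟩
    rw [Metric.mem_ball, hd]
    rw [dist_comm, dist_eq_norm] at a1
    have a3 : T.n2 (ρ1 2 - c y) < r / 2 := a1
    have a4 := T.n2_tri (ρ2 2) (ρ1 2) (c y)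
    exact lt_of_le_of_lt a4 (by linarith)
  obtain ⟨y, hy⟩ := (dense_iInter_of_isOpen hO hD).nonempty
  rw [Set.mem_iInter] at hy
  have ut : ∀ z ∈ unitary M, Un ![ρ 0, ρ 1, z] := fun z hz i => by
    fin_cases i
    exacts [hu 0, hu 1, hz]
  refine ⟨![ρ 0, ρ 1, c y], ut _ (cu y), fun g hg => ?_, fun P hP h z => ?_⟩
  · obtain ⟨u, h, hl⟩ := sq y
    have l : T.Lim (fun n => pe ![ρ 0, ρ 1, u n 2] g) (pe ![ρ 0, ρ 1, c y] g) := by
      have := hl.const_mul (g.toWord.length : ℝ)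
      rw [mul_zero] at this
      refine squeeze_zero (fun n => T.n2_nonneg _) (fun n => ?_) this
      exact evL_lip T (ut _ ((h n).1 2)) (ut _ (cu y))
        (fun i => by fin_cases i <;> simp [T.n2_nonneg]) _
    refine tendsto_nhds_unique (Tr.Lim.τ T l) (tendsto_const_nhds.congr fun n => ?_)
    have e : (ut _ ((h n).1 2)).hom = (h n).1.hom.comp (FreeGroup.map Fin.castSucc) := by
      refine FreeGroup.ext_hom _ _ fun i => Subtype.ext ?_
      have h0 := (h n).2.2.2.1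
      have h1 := (h n).2.2.2.2
      fin_cases i <;> simp [Un.hom, h0, h1]
    rw [(ut _ ((h n).1 2)).pe_eq, e, MonoidHom.comp_apply, ← (h n).1.pe_eq]
    exact ((h n).2.1 _ fun e => hg (FreeGroup.map_injective (Fin.castSucc_injective 3)
      (by rw [e, map_one]))).symm
  · refine T.kap hP fun ε hε => ?_
    obtain ⟨k, hk⟩ := hξ z (ε / 2) (half_pos hε)
    obtain ⟨m, hm⟩ := exists_nat_one_div_lt (half_pos hε)
    obtain ⟨f, L, -, h2, h3⟩ := hy (k, m)
    refine ⟨f (c y), h2 P _ (h 0) (h 1) (h 2), ?_⟩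
    rw [T.n2_sub_rev] at hk
    linarith [T.n2_tri (f (c y)) (ξ k) z]

end Vale.Agent.P086
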