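import Vale.Agent.P086.Gen
import Vale.Agent.P085.Bridge

open scoped ComplexOrder InnerProductSpace ComplexConjugate
open Filter Topology Set

set_option linter.unusedSimpArgs false
set_option linter.unusedSectionVars false

namespace Vale.Agent.P086
open Vale.Agent.P085

lemma sepr {M : Type*} [CStarAlgebra M] {ι : Type*} [DecidableEq ι] [Countable ι] (T : Tr M)
    {ρ : ι → M} (hu : Un ρ) (hg : Gen T ρ) :
    ∃ ξ : ℕ → M, ∀ x, ∀ ε > 0, ∃ k, T.n2 (x - ξ k) < ε := by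
  have h := (countable_range (fun g => T.toH (pe ρ g))).isSeparable.span (R := ℂ) |>.closure
  have : TopologicalSpace.SeparableSpace T.H := by
    rw [← TopologicalSpace.isSeparable_univ_iff]
    refine h.mono fun x _ => Metric.mem_closure_iff.2 fun ε hε => ?_
    obtain ⟨p, hp, a⟩ := approx T hu hg (T.toH.symm x) ε hε
    refine ⟨T.toH p, ?_, by rw [dist_comm, dist_eq_norm]; exact a⟩
    have := Submodule.mem_map_of_mem (f := T.toH.toLinearMap) hp
    rwa [Submodule.map_span, ← range_comp] at this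
  refine ⟨fun k => T.toH.symm (TopologicalSpace.denseSeq T.H k), fun x ε hε => ?_⟩
  obtain ⟨k, hk⟩ := (TopologicalSpace.denseRange_denseSeq T.H).exists_dist_lt (T.toH x) hε
  rw [dist_eq_norm] at hk
  exact ⟨k, hk⟩

lemma pe_hom {M : Type*} [CStarAlgebra M] {ι : Type*} [DecidableEq ι] (Λ : FreeGroup ι → M)
    (h1 : ∀ g, Λ g ∈ unitary M) (h2 : ∀ g k, Λ (g * k) = Λ g * Λ k) (g : FreeGroup ι) :
    pe (fun i => Λ (FreeGroup.of i)) g = Λ g := by
  have hu : Un fun i => Λ (FreeGroup.of i) := fun i => h1 _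
  have : hu.hom = MonoidHom.mk' (fun g => ⟨Λ g, h1 g⟩) (fun g k => Subtype.ext (h2 g k)) :=
    FreeGroup.ext_hom _ _ fun i => by simp [Un.hom]
  rw [hu.pe_eq, this]; rfl

lemma span_mem {M : Type*} [CStarAlgebra M] {ι : Type*} [DecidableEq ι] {Λ : FreeGroup ι → M}
    {ρ : ι → M} (hpe : ∀ g, pe ρ g = Λ g) {P : StarSubalgebra ℂ M} (h : ∀ i, ρ i ∈ P) {p : M}
    (hp : p ∈ Submodule.span ℂ (range Λ)) : p ∈ P := by
  refine (Submodule.span_le (p := P.toSubalgebra.toSubmodule)).2 ?_ hp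
  rintro _ ⟨g, rfl⟩
  rw [← hpe]
  exact evL_mem h _

lemma cent_map {A B : Type*} [Ring A] [StarRing A] [Algebra ℂ A] [StarModule ℂ A] [Ring B]
    [StarRing B] [Algebra ℂ B] [StarModule ℂ B] (Φ : A ≃⋆ₐ[ℂ] B) {s : Set A} {t : Set B}
    (h : ∀ x, x ∈ s ↔ Φ x ∈ t) (x : A) :
    x ∈ StarSubalgebra.centralizer ℂ s ↔ Φ x ∈ StarSubalgebra.centralizer ℂ t := by
  simp only [StarSubalgebra.mem_centralizer_iff]
  constructor
  · intro H g hg
    obtain ⟨g, rfl⟩ := EquivLike.surjective Φ g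
    have := H g ((h g).2 hg)
    simp only [← map_star, ← map_mul, this.1, this.2, and_self]
  · intro H g hg
    have := H _ ((h g).1 hg)
    simp only [← map_star, ← map_mul] at this
    exact ⟨Φ.injective this.1, Φ.injective this.2⟩

lemma sub_equiv {A B : Type*} [Ring A] [StarRing A] [Algebra ℂ A] [StarModule ℂ A] [Ring B]
    [StarRing B] [Algebra ℂ B] [StarModule ℂ B] (Φ : A ≃⋆ₐ[ℂ] B) {S : StarSubalgebra ℂ A}
    {S' : StarSubalgebra ℂ B} (h : ∀ x, x ∈ S ↔ Φ x ∈ S') : Nonempty (S ≃⋆ₐ[ℂ] S') :=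
  ⟨{ Φ.toEquiv.subtypeEquiv h with
      map_mul' := fun a b => Subtype.ext (map_mul Φ a.1 b.1)
      map_add' := fun a b => Subtype.ext (map_add Φ a.1 b.1)
      map_star' := fun a => Subtype.ext (map_star Φ a.1)
      map_smul' := fun c a => Subtype.ext (map_smul Φ c a.1) }⟩

noncomputable abbrev l2 (G : Type*) := lp (fun _ : G => ℂ) 2

def lreg (G : Type*) [Group G] : Set (l2 G →L[ℂ] l2 G) :=
  {T | ∃ g : G, ∀ (ξ : l2 G) (h : G), T ξ h = ξ (g⁻¹ * h)}

section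
variable {H : Type*} [NormedAddCommGroup H] [InnerProductSpace ℂ H] [CompleteSpace H]

noncomputable def vn (s : Set (H →L[ℂ] H)) : VonNeumannAlgebra H :=
  { StarSubalgebra.centralizer ℂ s with
    centralizer_centralizer' := Set.centralizer_centralizer_centralizer _ }

noncomputable def dc (s : Set (H →L[ℂ] H)) : VonNeumannAlgebra H :=
  vn (StarSubalgebra.centralizer ℂ s : Set (H →L[ℂ] H))

lemma mem_dc {s : Set (H →L[ℂ] H)} {x : H →L[ℂ] H} (h : x ∈ s) : x ∈ dc s :=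
  StarAlgebra.adjoin_le_centralizer_centralizer ℂ s (StarAlgebra.subset_adjoin ℂ s h)

lemma dc_le {s : Set (H →L[ℂ] H)} {M : VonNeumannAlgebra H} (h : ∀ x ∈ s, x ∈ M) {x : H →L[ℂ] H}
    (hx : x ∈ dc s) : x ∈ M := by
  rw [← M.commutant_commutant, VonNeumannAlgebra.mem_commutant_iff]
  intro g hg
  rw [VonNeumannAlgebra.mem_commutant_iff] at hg
  refine ((StarSubalgebra.mem_centralizer_iff ℂ).1 hx g ?_).1
  exact (StarSubalgebra.mem_centralizer_iff ℂ).2 fun a ha => ⟨hg a (h a ha), hg _ (star_mem (h a ha))⟩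

attribute [local instance] vnClosed

variable {M : VonNeumannAlgebra H} {T : Tr M.toStarSubalgebra} {Ω : H}
  (hΩ : ∀ x : M.toStarSubalgebra, T.τ x = ⟪Ω, (x : H →L[ℂ] H) Ω⟫_ℂ)
include hΩ

lemma inner_vec (x y : M.toStarSubalgebra) :
    ⟪(x : H →L[ℂ] H) Ω, (y : H →L[ℂ] H) Ω⟫_ℂ = T.τ (star x * y) := by
  rw [hΩ, ← ContinuousLinearMap.adjoint_inner_right]; rfl

lemma n2_vec (x : M.toStarSubalgebra) : T.n2 x = ‖(x : H →L[ℂ] H) Ω‖ := by
  apply Tr.eq_of_sq (T.n2_nonneg _) (norm_nonneg _)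
  rw [T.n2_sq, ← inner_vec hΩ, @norm_sq_eq_re_inner ℂ]; rfl

lemma nm_vec : Nm T := fun l x _ _ h => by
  rw [hΩ, funext hΩ]; exact h Ω Ω

theorem iso (hd : ∀ ξ, ∀ ε > 0, ∃ x : M.toStarSubalgebra, ‖(x : H →L[ℂ] H) Ω - ξ‖ < ε)
    {ι : Type*} [DecidableEq ι] {σ : ι → M.toStarSubalgebra} (hu : Un σ) (hr : Reg T σ)
    (hg : Gen T σ) :
    Nonempty (M.toStarSubalgebra ≃⋆ₐ[ℂ] (dc (lreg (FreeGroup ι))).toStarSubalgebra) := by
  let π : FreeGroup ι → H →L[ℂ] H := fun g => (pe σ g : M.toStarSubalgebra)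
  have hv : Orthonormal ℂ (fun g => π g Ω) := by
    rw [orthonormal_iff_ite]
    intro g k
    rw [inner_vec hΩ, ← hu.pe_inv, ← hu.pe_mul, hr.eq, del1]
    simp only [inv_mul_eq_one]
  have hsp : ⊤ ≤ (Submodule.span ℂ (range fun g => π g Ω)).topologicalClosure := fun ξ _ => by
    refine Metric.mem_closure_iff.2 fun ε hε => ?_
    obtain ⟨x, a1⟩ := hd ξ (ε / 2) (half_pos hε)
    obtain ⟨p, hp, a2⟩ := approx T hu hg x (ε / 2) (half_pos hε)
    refine ⟨(p : H →L[ℂ] H) Ω, ?_, ?_⟩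
    · have := Submodule.mem_map_of_mem (f := (ContinuousLinearMap.apply ℂ H Ω).toLinearMap ∘ₗ
        M.toStarSubalgebra.subtype.toLinearMap) hp
      rwa [Submodule.map_span, ← range_comp] at this
    · rw [n2_vec hΩ] at a2
      rw [dist_comm, dist_eq_norm]
      exact (norm_sub_le_norm_sub_add_norm_sub _ ((x : H →L[ℂ] H) Ω) _).trans_lt
        (by change ‖(p : H →L[ℂ] H) Ω - (x : H →L[ℂ] H) Ω‖ < _ at a2; linarith)
  let b := HilbertBasis.mk hv hsp
  have hb : ∀ g, b g = π g Ω := fun g => congrFun (HilbertBasis.coe_mk hv hsp) g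
  let Φ := b.repr.conjStarAlgEquiv
  have hΦ : ∀ g (ξ : l2 (FreeGroup ι)) h, Φ (π g) ξ h = ξ (g⁻¹ * h) := fun g ξ h => by
    obtain ⟨ξ, rfl⟩ := b.repr.surjective ξ
    rw [LinearIsometryEquiv.conjStarAlgEquiv_apply_apply, b.repr.symm_apply_apply,
      b.repr_apply_apply, b.repr_apply_apply, hb, hb, ← ContinuousLinearMap.adjoint_inner_left]
    simp only [π, hu.pe_mul, hu.pe_inv]
    rfl
  have h1 : ∀ x, x ∈ range π ↔ Φ x ∈ lreg (FreeGroup ι) := fun x => by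
    constructor
    · rintro ⟨g, rfl⟩; exact ⟨g, hΦ g⟩
    · rintro ⟨g, h⟩
      refine ⟨g, EquivLike.injective Φ ?_⟩
      ext ξ k
      rw [hΦ, h]
  refine sub_equiv Φ fun x => Iff.trans ?_ (cent_map Φ (cent_map Φ h1) x)
  refine ⟨fun hx => ?_, fun hx => dc_le (s := range π) (by rintro _ ⟨g, rfl⟩; exact (pe σ g).2) hx⟩
  exact hg ((dc (range π)).toStarSubalgebra.comap M.toStarSubalgebra.subtype)
    (fun f z R h1 h2 h3 => ((nm_vec hΩ).wt h2 h3).mem (M := dc (range π)) h1)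
    (fun i => mem_dc ⟨FreeGroup.of i, by simp only [π, hu.pe_of]; rfl⟩) ⟨x, hx⟩

end

section
variable {G : Type*}

noncomputable def b0 : HilbertBasis G ℂ (l2 G) := default

lemma b0_inner (g : G) (ξ : l2 G) : ⟪b0 g, ξ⟫_ℂ = ξ g := (b0.repr_apply_apply ξ g).symm

lemma b0_sum (ξ : l2 G) : HasSum (fun g => ξ g • b0 g) ξ := b0.hasSum_repr ξ

lemma exists_perm (e : G ≃ G) : ∃ u ∈ unitary (l2 G →L[ℂ] l2 G),
    (∀ (ξ : l2 G) h, u ξ h = ξ (e h)) ∧ ∀ g, u (b0 (e g)) = b0 g := by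
  have hv : Orthonormal ℂ (b0 ∘ e) := b0.orthonormal.comp e e.injective
  have hsp : ⊤ ≤ (Submodule.span ℂ (range (b0 ∘ e))).topologicalClosure := by
    rw [e.surjective.range_comp, b0.dense_span]
  have hb := HilbertBasis.coe_mk hv hsp
  have k : ∀ (ξ : l2 G) h, (HilbertBasis.mk hv hsp).repr ξ h = ξ (e h) := fun ξ h => by
    rw [HilbertBasis.repr_apply_apply, hb]; exact b0_inner _ _
  refine ⟨_, (Unitary.linearIsometryEquiv.symm (HilbertBasis.mk hv hsp).repr).2, k, fun g => ?_⟩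
  classical
  ext h
  refine (k _ h).trans ?_
  rw [← b0_inner, ← b0_inner, orthonormal_iff_ite.1 b0.orthonormal,
    orthonormal_iff_ite.1 b0.orthonormal]
  simp

end

attribute [local instance] vnClosed

theorem base (ι : Type*) [DecidableEq ι] : ∃ (T : Tr (dc (lreg (FreeGroup ι))).toStarSubalgebra)
    (Ω : l2 (FreeGroup ι)) (ρ : ι → (dc (lreg (FreeGroup ι))).toStarSubalgebra),
    (∀ x, T.τ x = ⟪Ω, x.1 Ω⟫_ℂ) ∧ (∀ ξ, ∀ ε > 0, ∃ x : (dc (lreg (FreeGroup ι))).toStarSubalgebra,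
      ‖x.1 Ω - ξ‖ < ε) ∧ Un ρ ∧ Reg T ρ ∧ Gen T ρ := by
  choose lam l1 l2 l3 using fun g : FreeGroup ι => exists_perm (Equiv.mulLeft g⁻¹)
  choose rho r1 r2 r3 using fun g : FreeGroup ι => exists_perm (Equiv.mulRight g⁻¹)
  simp only [Equiv.coe_mulLeft, Equiv.coe_mulRight] at l2 l3 r2 r3
  have lm : ∀ g k, lam (g * k) = lam g * lam k := fun g k => by
    ext ξ h; simp [l2, mul_assoc]
  have l0 : lam 1 = 1 := by ext ξ h; simp [l2]
  have ls : ∀ g, star (lam g) = lam g⁻¹ := fun g => by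
    rw [← mul_one (star _), ← l0, ← mul_inv_cancel g, lm, ← mul_assoc,
      Unitary.star_mul_self_of_mem (l1 g), one_mul]
  have lr : ∀ g k, lam g * rho k = rho k * lam g := fun g k => by
    ext ξ h; simp [l2, r2, mul_assoc]
  have cm : ∀ k, ∀ x ∈ dc (lreg (FreeGroup ι)), rho k * x = x * rho k := fun k x hx => by
    refine ((StarSubalgebra.mem_centralizer_iff ℂ).1 hx _ ?_).1
    refine (StarSubalgebra.mem_centralizer_iff ℂ).2 ?_
    rintro a ⟨g, hg⟩
    have : a = lam g := by ext ξ h; rw [hg, l2]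
    rw [this, ls]
    exact ⟨lr _ _, lr _ _⟩
  have xb : ∀ x ∈ dc (lreg (FreeGroup ι)), ∀ g, x (b0 g) = rho g (x (b0 1)) := fun x hx g => by
    have := r3 g g
    rw [mul_inv_cancel] at this
    rw [← this]
    exact (DFunLike.congr_fun (cm g x hx) (b0 1)).symm
  have hs : ∀ x ∈ dc (lreg (FreeGroup ι)), ∀ y ∈ dc (lreg (FreeGroup ι)),
      HasSum (fun g => y (b0 1) g * x (b0 1) g⁻¹) ⟪b0 1, x (y (b0 1))⟫_ℂ := fun x hx y hy => by
    have := (b0_sum (y (b0 1))).mapL (innerSL ℂ (b0 1) ∘L x)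
    refine this.congr_fun fun g => ?_
    simp only [ContinuousLinearMap.comp_apply, map_smul, innerSL_apply_apply, b0_inner]
    rw [xb x hx g, r2, one_mul, smul_eq_mul]
  let T : Tr (dc (lreg (FreeGroup ι))).toStarSubalgebra :=
    { τ := (innerSL ℂ (b0 1)).toLinearMap ∘ₗ (ContinuousLinearMap.apply ℂ _ (b0 1)).toLinearMap ∘ₗ
        (dc (lreg (FreeGroup ι))).toStarSubalgebra.subtype.toLinearMap
      one := by
        change ⟪b0 1, b0 1⟫_ℂ = 1
        rw [inner_self_eq_norm_sq_to_K, b0.orthonormal.1]; simp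
      pos := fun x => by
        change 0 ≤ ⟪b0 1, ContinuousLinearMap.adjoint x.1 (x.1 (b0 1))⟫_ℂ
        rw [ContinuousLinearMap.adjoint_inner_right, inner_self_eq_norm_sq_to_K]
        positivity
      tr := fun x y => by
        refine (hs _ x.2 _ y.2).unique ?_
        have := (Equiv.inv _).hasSum_iff.2 (hs _ y.2 _ x.2)
        simpa [Function.comp_def, mul_comm] using this
      faith := fun x h => by
        change ⟪b0 1, ContinuousLinearMap.adjoint x.1 (x.1 (b0 1))⟫_ℂ = 0 at h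
        rw [ContinuousLinearMap.adjoint_inner_right, inner_self_eq_zero] at h
        refine Subtype.ext (ContinuousLinearMap.ext fun ξ => ?_)
        refine ((b0_sum ξ).mapL x.1).unique ?_
        refine hasSum_zero.congr_fun fun g => ?_
        rw [map_smul, xb _ x.2 g, h, map_zero, smul_zero] }
  have hΩ : ∀ x, T.τ x = ⟪b0 1, x.1 (b0 1)⟫_ℂ := fun x => rfl
  let Λ : FreeGroup ι → (dc (lreg (FreeGroup ι))).toStarSubalgebra :=
    fun g => ⟨lam g, mem_dc ⟨g, l2 g⟩⟩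
  have Λu : ∀ g, Λ g ∈ unitary _ := fun g =>
    ⟨Subtype.ext (l1 g).1, Subtype.ext (l1 g).2⟩
  have hu : Un fun i => Λ (FreeGroup.of i) := fun i => Λu _
  have hpe := pe_hom Λ Λu fun g k => Subtype.ext (lm g k)
  have lb : ∀ g, lam g (b0 1) = b0 g := fun g => by simpa using l3 g g
  have hd : ∀ ξ, ∀ ε > 0, ∃ p ∈ Submodule.span ℂ (range Λ), ‖p.1 (b0 1) - ξ‖ < ε := by
    intro ξ ε hε
    have : ξ ∈ (Submodule.span ℂ (range b0)).topologicalClosure := by
      rw [b0.dense_span]; trivial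
    obtain ⟨η, h1, h2⟩ := Metric.mem_closure_iff.1 this ε hε
    have e : (b0 : FreeGroup ι → _) = ((ContinuousLinearMap.apply ℂ _ (b0 1)).toLinearMap ∘ₗ
        (dc (lreg (FreeGroup ι))).toStarSubalgebra.subtype.toLinearMap) ∘ Λ :=
      funext fun g => (lb g).symm
    rw [e, range_comp, ← Submodule.map_span] at h1
    obtain ⟨p, hp, rfl⟩ := h1
    rw [dist_comm, dist_eq_norm] at h2
    exact ⟨p, hp, h2⟩
  refine ⟨T, b0 1, _, hΩ, fun ξ ε hε => ?_, hu, fun g hg => ?_, fun P hP h x => ?_⟩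
  · obtain ⟨p, -, h⟩ := hd ξ ε hε
    exact ⟨p, h⟩
  · rw [hpe, hΩ]
    change ⟪b0 1, lam g (b0 1)⟫_ℂ = 0
    rw [lb]
    exact b0.orthonormal.2 hg.symm
  · refine T.kap hP fun ε hε => ?_
    obtain ⟨p, hp, a⟩ := hd (x.1 (b0 1)) ε hε
    refine ⟨p, ?_, by rw [n2_vec hΩ]; exact a⟩
    exact span_mem hpe h hp

theorem main : Nonempty ((dc (lreg (FreeGroup (Fin 3)))).toStarSubalgebra ≃⋆ₐ[ℂ]
    (dc (lreg (FreeGroup (Fin 4)))).toStarSubalgebra) := by
  obtain ⟨T, Ω, ρ, hΩ, hd, hu, hr, hg⟩ := base (Fin 4)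
  obtain ⟨ξ, hξ⟩ := sepr T hu hg
  obtain ⟨σ, su, sr, sg⟩ := drop (nm_vec hΩ).cpl ξ hξ hu hr hg
  obtain ⟨e⟩ := iso hΩ hd su sr sg
  exact ⟨e.symm⟩

lemma basis_iso {G H : Type*} [Group G] [NormedAddCommGroup H] [InnerProductSpace ℂ H]
    [CompleteSpace H] (b : HilbertBasis G ℂ H) :
    Nonempty ((dc {T : H →L[ℂ] H | ∃ g, ∀ h, T (b h) = b (g * h)}).toStarSubalgebra ≃⋆ₐ[ℂ]
      (dc (lreg G)).toStarSubalgebra) := by
  classical
  let Φ := b.repr.conjStarAlgEquiv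
  have hb : ∀ g, b.repr (b g) = b0 g := fun g => by
    rw [b.repr_self, ← (b0 (G := G)).repr_self]; rfl
  have h1 : ∀ x, x ∈ {T : H →L[ℂ] H | ∃ g, ∀ h, T (b h) = b (g * h)} ↔ Φ x ∈ lreg G := fun x => by
    refine exists_congr fun g => ?_
    obtain ⟨u, -, u1, u2⟩ := exists_perm (Equiv.mulLeft g⁻¹)
    simp only [Equiv.coe_mulLeft] at u1 u2
    have u3 : ∀ h, u (b0 h) = b0 (g * h) := fun h => by simpa using u2 (g * h)
    have e : ∀ h, Φ x (b0 h) = b.repr (x (b h)) := fun h => by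
      rw [← hb, LinearIsometryEquiv.conjStarAlgEquiv_apply_apply, b.repr.symm_apply_apply]
    constructor
    · intro hx ξ h
      have : Φ x ξ = u ξ := ((b0_sum ξ).mapL (Φ x)).unique (((b0_sum ξ).mapL u).congr_fun fun k => by
        rw [map_smul, map_smul, e, hx, hb, u3])
      rw [this, u1]
    · intro hx h
      have : Φ x = u := by ext ξ k; rw [hx, u1]
      apply b.repr.injective
      rw [← e, this, u3, hb]
  exact sub_equiv Φ (cent_map Φ (cent_map Φ h1))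

theorem main' {H K : Type*} [NormedAddCommGroup H] [InnerProductSpace ℂ H] [CompleteSpace H]
    [NormedAddCommGroup K] [InnerProductSpace ℂ K] [CompleteSpace K]
    (b : HilbertBasis (FreeGroup (Fin 3)) ℂ H) (c : HilbertBasis (FreeGroup (Fin 4)) ℂ K) :
    Nonempty ((dc {T : H →L[ℂ] H | ∃ g, ∀ h, T (b h) = b (g * h)}).toStarSubalgebra ≃⋆ₐ[ℂ]
      (dc {T : K →L[ℂ] K | ∃ g, ∀ h, T (c h) = c (g * h)}).toStarSubalgebra) := by
  obtain ⟨e1⟩ := basis_iso b
  obtain ⟨e2⟩ := basis_iso c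
  obtain ⟨e⟩ := main
  exact ⟨(e1.trans e).trans e2.symm⟩

end Vale.Agent.P086
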