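import Mathlib

set_option linter.unusedSimpArgs false
set_option linter.unusedSectionVars false

namespace Vale.Agent.P086
open FreeGroup hiding map_mul map_inv map_one

abbrev G4 := FreeGroup (Fin 4)

def bb (j : ℕ) : G4 := of 0 ^ j * of 1 * (of 0 ^ j)⁻¹

def aa : ℕ → G4
  | 0 => bb 0
  | j + 1 => (bb j)⁻¹ * bb (j + 1)

def zz : ℕ → G4
  | 0 => 1
  | j + 1 => zz j * aa j * of 2

def uu (j : ℕ) : G4 := zz j * aa j

def ιh (B : ℕ) : FreeGroup (Fin B) →* G4 := lift fun j => uu j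

abbrev XX := (ℤ × FreeGroup ℤ) × ℤ

def sh (n : ℤ) : Equiv.Perm XX where
  toFun x := ((x.1.1 + n, x.1.2), x.2)
  invFun x := ((x.1.1 - n, x.1.2), x.2)
  left_inv x := by simp
  right_inv x := by simp

def dd : Equiv.Perm XX where
  toFun x := ((x.1.1, of (-x.1.1) * x.1.2), x.2)
  invFun x := ((x.1.1, (of (-x.1.1))⁻¹ * x.1.2), x.2)
  left_inv x := by simp
  right_inv x := by simp

def vv (n : ℤ) : Equiv.Perm XX where
  toFun x := (x.1, x.2 + if x.1 = (0, 1) then n else 0)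
  invFun x := (x.1, x.2 - if x.1 = (0, 1) then n else 0)
  left_inv x := by simp
  right_inv x := by simp

lemma sh_pow (j : ℕ) : sh 1 ^ j = sh j := by
  induction j with
  | zero => ext x <;> simp [sh]
  | succ j ih => rw [pow_succ, ih]; ext x <;> simp [sh]; ring

lemma vv_zpow (n : ℤ) : vv 1 ^ n = vv n := by
  let φ : Multiplicative ℤ →* Equiv.Perm XX := MonoidHom.mk' (fun n => vv n.toAdd) (fun a b => by
    ext x <;> simp [vv]
    split_ifs <;> ring)
  have : φ (Multiplicative.ofAdd 1 ^ n) = φ (Multiplicative.ofAdd 1) ^ n := map_zpow _ _ _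
  simpa [φ] using this.symm

def ψ : G4 →* Equiv.Perm XX := lift ![sh 1, dd, 1, vv 1]

lemma ψ_bb (j : ℕ) (g : FreeGroup ℤ) (n : ℤ) : ψ (bb j) ((0, g), n) = ((0, of (j : ℤ) * g), n) := by
  have h0 : ψ (of 0) = sh 1 := by simp [ψ]
  have h1 : ψ (of 1) = dd := by simp [ψ]
  simp only [bb, map_mul, map_inv, map_pow, h0, h1, sh_pow]
  simp [sh, dd, Equiv.Perm.inv_def]

lemma ψ_uu (j : ℕ) : ψ (uu j) = ψ (bb j) := by
  have h2 : ψ (of 2) = 1 := by simp [ψ]
  induction j with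
  | zero => simp [uu, zz, aa]
  | succ j ih =>
    have : uu (j + 1) = uu j * of 2 * ((bb j)⁻¹ * bb (j + 1)) := rfl
    rw [this]
    simp [ih, h2]

lemma ψ_ι (B : ℕ) (γ : FreeGroup (Fin B)) (g : FreeGroup ℤ) (n : ℤ) :
    ψ (ιh B γ) ((0, g), n) = ((0, map (fun j : Fin B => ((j : ℕ) : ℤ)) γ * g), n) := by
  induction γ using FreeGroup.induction_on generalizing g with
  | C1 => simp
  | of j => simp [ιh, ψ_uu, ψ_bb]
  | inv_of j ih =>
    rw [map_inv, map_inv, Equiv.Perm.inv_eq_iff_eq, ih]; simp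
  | mul a b iha ihb => simp [iha, ihb, mul_assoc]

lemma grp_ne {B : ℕ} {γ : FreeGroup (Fin B)} (hγ : γ ≠ 1) {n : ℤ} (hn : n ≠ 0) (m : ℤ) :
    of 3 ^ n * (ιh B γ * of 3 ^ m * (ιh B γ)⁻¹) ≠ 1 := by
  intro h
  have h3 : ψ (of 3) = vv 1 := by simp [ψ]
  have hi : map (fun j : Fin B => ((j : ℕ) : ℤ)) γ ≠ 1 := fun e => hγ
    (map_injective (f := fun j : Fin B => ((j : ℕ) : ℤ)) (fun a b h => by
      simpa [Fin.ext_iff] using h) (by rw [e, map_one]))
  have := congrArg (fun g => ψ g ((0, 1), 0)) h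
  simp only [map_mul, ← map_inv, map_zpow, h3, vv_zpow, Equiv.Perm.mul_apply, ψ_ι] at this
  simp [vv, hi, ψ_ι, hn] at this

def σz (B : ℕ) : G4 →* G4 := lift (Function.update of 3 (zz B * (of 3)⁻¹))

lemma hom_zz {H : Type*} [Group H] {f g : G4 →* H} (h0 : f (of 0) = g (of 0))
    (h1 : f (of 1) = g (of 1)) : (∀ j, f (aa j) = g (aa j)) ∧
    (f (of 2) = g (of 2) → ∀ j, f (zz j) = g (zz j)) := by
  have hb : ∀ j, f (bb j) = g (bb j) := fun j => by simp [bb, h0, h1]
  have ha : ∀ j, f (aa j) = g (aa j) := fun j => by cases j <;> simp [aa, hb]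
  refine ⟨ha, fun h2 j => ?_⟩
  induction j with
  | zero => simp [zz]
  | succ j ih => simp [zz, ih, ha, h2]

lemma σz_inj (B : ℕ) : Function.Injective (σz B) := by
  let σ' : G4 →* G4 := lift (Function.update of 3 ((of 3)⁻¹ * zz B))
  have hz : σ' (zz B) = zz B :=
    (hom_zz (f := σ') (g := MonoidHom.id _) (by simp [σ']) (by simp [σ'])).2 (by simp [σ']) B
  have : σ'.comp (σz B) = MonoidHom.id _ := by
    refine FreeGroup.ext_hom _ _ fun i => ?_
    by_cases h : i = 3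
    · subst h
      have e : σz B (of 3) = zz B * (of 3)⁻¹ := by simp [σz]
      have e' : σ' (of 3) = (of 3)⁻¹ * zz B := by simp [σ']
      simp [e, e', hz]
    · simp [σz, σ', h]
  exact Function.LeftInverse.injective (g := σ') fun x => DFunLike.congr_fun this x

end Vale.Agent.P086
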