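import Vale.Agent.P085.Basic

open scoped ComplexOrder InnerProductSpace ComplexConjugate
open Filter Topology Finset

set_option linter.unusedSimpArgs false
set_option linter.unusedSectionVars false

namespace Vale.Agent.P086
open Vale.Agent.P085

lemma log_pt {r ε : ℝ} (hr0 : 0 ≤ r) (hr : r < 1) (hε : ε ≤ 1 / 2) {N : ℕ}
    (hN : r ^ (N + 1) * (1 - r)⁻¹ / (N + 1) ≤ ε) {ζ p : ℂ} (hζ : ‖ζ‖ = 1)
    (hp : p = -Complex.logTaylor (N + 1) (r * ζ)) :
    ‖p - star p‖ ≤ 10 ∧
    ‖Complex.exp (p - star p) - star ζ - (1 - r) * ((1 - star ζ) * (1 + r * ζ)⁻¹)‖ ≤ 4 * ε := by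
  have hz : ‖(r : ℂ) * ζ‖ = r := by rw [norm_mul, hζ, Complex.norm_real, Real.norm_of_nonneg hr0, mul_one]
  have h1 := Complex.norm_log_sub_logTaylor_le N (z := r * ζ) (by rwa [hz])
  rw [hz] at h1
  have h2 : ‖Complex.log (1 + r * ζ) + p‖ ≤ ε := by rw [hp, ← sub_eq_add_neg]; exact h1.trans hN
  have h0 : (1 + r * ζ : ℂ) ≠ 0 := fun h => by
    have : (r : ℂ) * ζ = -1 := by linear_combination h
    rw [this] at hz; simp at hz; linarith
  set l := Complex.log (1 + r * ζ) with hl
  have h3 : ‖(l + p) - star (l + p)‖ ≤ 2 * ε := by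
    refine (norm_sub_le _ _).trans ?_
    rw [norm_star]; linarith
  have e1 : p - star p = (star l - l) + ((l + p) - star (l + p)) := by rw [star_add]; ring
  constructor
  · have : ‖star l - l‖ ≤ 2 * Real.pi := by
      rw [norm_sub_rev, Complex.star_def, Complex.sub_conj, norm_mul, Complex.norm_I, mul_one,
        Complex.norm_real, hl, Complex.log_im, norm_mul, Real.norm_two, Real.norm_eq_abs]
      linarith [Complex.abs_arg_le_pi (1 + r * ζ)]
    rw [e1]
    linarith [norm_add_le (star l - l) ((l + p) - star (l + p)), Real.pi_le_four]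
  · have e2 : Complex.exp (star l - l) = star (1 + r * ζ) / (1 + r * ζ) := by
      rw [Complex.exp_sub, Complex.star_def, Complex.exp_conj, hl, Complex.exp_log h0]
    have e3 : star ζ * ζ = 1 := by
      rw [Complex.star_def, Complex.conj_mul', hζ]; simp
    have e4 : star ζ + (1 - r) * ((1 - star ζ) * (1 + r * ζ)⁻¹) = star (1 + r * ζ) / (1 + r * ζ) := by
      have : star (1 + (r : ℂ) * ζ) = 1 + r * star ζ := by simp
      rw [this]
      field_simp
      linear_combination (r : ℂ) * e3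
    have e5 : ‖Complex.exp (star l - l)‖ = 1 := by
      rw [e2, norm_div, norm_star, div_self (norm_ne_zero_iff.2 h0)]
    rw [sub_sub, e4, ← e2, e1, Complex.exp_add, ← mul_sub_one, norm_mul, e5, one_mul]
    linarith [Complex.norm_exp_sub_one_le (x := (l + p) - star (l + p)) (by linarith)]

variable {M : Type*} [CStarAlgebra M]

lemma n2_inv (T : Tr M) {v W : M} (hv : v ∈ unitary M) (h0 : ∀ n : ℕ, n ≠ 0 → T.τ (v ^ n) = 0)
    {r : ℝ} (hr0 : 0 ≤ r) (hr : r < 1) (hW : (1 + (r : ℂ) • v) * W = 1) :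
    T.n2 W ^ 2 * (1 - r ^ 2) = 1 := by
  have := T.nontriv
  have e : W = 1 - (r : ℂ) • (v * W) := by
    rw [← hW, add_mul, smul_mul_assoc]; simp
  have k : ∀ n k : ℕ, k ≠ 0 → ‖T.τ (v ^ k * W)‖ ≤ r ^ n * ‖W‖ := by
    intro n
    induction n with
    | zero =>
      intro k _
      refine (T.τ_le_norm _).trans ?_
      rw [CStarRing.norm_mem_unitary_mul _ (pow_mem hv k)]; simp
    | succ n ih =>
      intro k hk
      nth_rw 1 [e]
      rw [mul_sub, map_sub, mul_one, h0 k hk, zero_sub, norm_neg, mul_smul_comm, map_smul,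
        norm_smul, ← mul_assoc, ← pow_succ, Complex.norm_real, Real.norm_of_nonneg hr0, pow_succ' r,
        mul_assoc]
      exact mul_le_mul_of_nonneg_left (ih _ (by simp)) hr0
  have t := (tendsto_pow_atTop_nhds_zero_of_lt_one hr0 hr).mul_const ‖W‖
  rw [zero_mul] at t
  have k1 : T.τ (v * W) = 0 := by
    simpa using ge_of_tendsto' t fun n => k n 1 one_ne_zero
  have e2 : star W * W = 1 - (r : ℂ) • (v * W) - (r : ℂ) • star (v * W) +
      ((r : ℂ) * r) • (star (v * W) * (v * W)) := by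
    nth_rw 1 [e]; nth_rw 2 [e]
    simp only [star_sub, star_one, star_smul, Complex.star_def, Complex.conj_ofReal, sub_mul,
      mul_sub, one_mul, mul_one, smul_mul_assoc, mul_smul_comm, smul_smul]
    module
  have e3 := congrArg T.τ e2
  rw [map_add, map_sub, map_sub, map_smul, map_smul, map_smul, T.τ_star, k1, T.n2_sq', T.n2_sq',
    T.n2_unit_left (Unitary.star_mul_self_of_mem hv), T.one] at e3
  simp only [smul_eq_mul, map_zero, mul_zero, sub_zero] at e3
  have e4 : T.n2 W ^ 2 = 1 + r * r * T.n2 W ^ 2 := by exact_mod_cast e3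
  linarith

theorem exists_log (T : Tr M) {v : M} (hv : v ∈ unitary M)
    (h0 : ∀ n : ℕ, n ≠ 0 → T.τ (v ^ n) = 0) {δ : ℝ} (hδ : 0 < δ) :
    ∃ (N : ℕ) (f : ℕ → ℂ) (A : M), A = ∑ j ∈ range N, f j • v ^ (j + 1) ∧ ‖A - star A‖ ≤ 10 ∧
      T.n2 (NormedSpace.exp (A - star A) - star v) < δ := by
  have := T.nontriv
  have hn := isStarNormal_of_mem_unitary hv
  set η := min (1 / 2) (δ ^ 2 / 32) with hη
  have η0 : 0 < η := by positivity
  have η1 : η ≤ 1 / 2 := min_le_left _ _
  have η2 : η ≤ δ ^ 2 / 32 := min_le_right _ _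
  set r := 1 - η with hr
  have r0 : 0 ≤ r := by linarith
  have r1 : r < 1 := by linarith
  set ε := min (1 / 2) (δ / 8) with hε
  have ε0 : 0 < ε := by positivity
  obtain ⟨N, hN⟩ := (((tendsto_pow_atTop_nhds_zero_of_lt_one r0 r1).mul_const (1 - r)⁻¹).eventually
    (gt_mem_nhds (by simpa using ε0))).exists
  have hN' : r ^ (N + 1) * (1 - r)⁻¹ / (N + 1) ≤ ε := by
    have h1 : 0 ≤ (1 - r)⁻¹ := by have : 0 < 1 - r := by linarith
                                  positivity
    refine (div_le_self (by positivity) (by simp)).trans (le_trans ?_ hN.le)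
    exact mul_le_mul_of_nonneg_right (pow_le_pow_of_le_one r0 r1.le (Nat.le_succ N)) h1
  let f : ℕ → ℂ := fun j => -((-1) ^ (j + 2) * r ^ (j + 1) / (j + 1))
  let p : ℂ → ℂ := fun ζ => ∑ j ∈ range N, f j * ζ ^ (j + 1)
  have hp : ∀ ζ, p ζ = -Complex.logTaylor (N + 1) (r * ζ) := fun ζ => by
    simp only [p, f, Complex.logTaylor, sum_range_succ', Nat.cast_zero, div_zero, add_zero,
      ← sum_neg_distrib]
    exact sum_congr rfl fun j _ => by push_cast; ring
  have hpc : Continuous p := by fun_prop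
  have hA : cfc p v = ∑ j ∈ range N, f j • v ^ (j + 1) := by
    have : p = ∑ j ∈ range N, fun ζ => f j * ζ ^ (j + 1) := by ext; simp [p]
    rw [this, cfc_sum _ _ _ (fun _ _ => by fun_prop)]
    exact sum_congr rfl fun j _ => by rw [cfc_const_mul .., cfc_pow_id ..]
  have hs : ∀ ζ ∈ spectrum ℂ v, ‖ζ‖ = 1 := spectrum.norm_eq_one_of_unitary hv
  have hne : ∀ ζ ∈ spectrum ℂ v, (1 + r * ζ : ℂ) ≠ 0 := fun ζ hζ h => by
    have h1 : (r : ℂ) * ζ = -1 := by linear_combination h
    have h2 := congrArg norm h1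
    rw [norm_mul, hs ζ hζ, Complex.norm_real, Real.norm_of_nonneg r0] at h2
    simp at h2; linarith
  have hc : ContinuousOn (fun ζ : ℂ => (1 + r * ζ)⁻¹) (spectrum ℂ v) :=
    ContinuousOn.inv₀ (by fun_prop) hne
  set W := cfc (fun ζ : ℂ => (1 + r * ζ)⁻¹) v with hW
  have hW1 : (1 + (r : ℂ) • v) * W = 1 := by
    have e : cfc (fun ζ : ℂ => 1 + r * ζ) v = 1 + (r : ℂ) • v := by
      rw [cfc_const_add .., cfc_const_mul_id ..]; simp
    rw [← e, hW, ← cfc_mul _ _ v (by fun_prop) hc, ← cfc_const_one ℂ v]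
    exact cfc_congr fun ζ hζ => mul_inv_cancel₀ (hne ζ hζ)
  have hF : cfc (fun ζ => p ζ - star (p ζ)) v = cfc p v - star (cfc p v) := by
    rw [cfc_sub _ _ v hpc.continuousOn hpc.star.continuousOn, cfc_star]
  refine ⟨N, f, cfc p v, hA, ?_, ?_⟩
  · rw [← hF]
    exact norm_cfc_le (by norm_num) fun ζ hζ =>
      (log_pt r0 r1 (min_le_left _ _) hN' (hs ζ hζ) (hp ζ)).1
  · have e1 : cfc (fun ζ => Complex.exp (p ζ - star (p ζ)) - star ζ -
        (1 - r) * ((1 - star ζ) * (1 + r * ζ)⁻¹)) v =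
        NormedSpace.exp (cfc p v - star (cfc p v)) - star v - (1 - r : ℂ) • ((1 - star v) * W) := by
      have c1 : Continuous fun ζ => p ζ - star (p ζ) := hpc.sub hpc.star
      have c2 : Continuous fun ζ => Complex.exp (p ζ - star (p ζ)) := Complex.continuous_exp.comp c1
      have c3 : Continuous fun ζ : ℂ => 1 - star ζ := by fun_prop
      have c4 : ContinuousOn (fun ζ : ℂ => (1 - star ζ) * (1 + r * ζ)⁻¹) (spectrum ℂ v) :=
        c3.continuousOn.mul hc
      have c5 : Continuous fun ζ : ℂ => star ζ := continuous_star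
      have c6 : Continuous fun ζ => Complex.exp (p ζ - star (p ζ)) - star ζ := c2.sub c5
      have c7 : ContinuousOn (fun ζ : ℂ => (1 - r) * ((1 - star ζ) * (1 + r * ζ)⁻¹))
          (spectrum ℂ v) := continuousOn_const.mul c4
      have c8 : Continuous fun _ : ℂ => (1 : ℂ) := continuous_const
      rw [cfc_sub _ _ v c6.continuousOn c7,
        cfc_sub _ _ v c2.continuousOn c5.continuousOn, cfc_const_mul _ _ v c4,
        cfc_mul _ _ v c3.continuousOn hc,
        cfc_sub _ _ v c8.continuousOn c5.continuousOn, cfc_star_id v hn,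
        cfc_const_one ℂ v, cfc_comp' Complex.exp _ v Complex.continuous_exp.continuousOn
          c1.continuousOn hn, CFC.complex_exp_eq_normedSpace_exp (cfc_predicate _ v), hF]
    have b1 := norm_cfc_le (c := 4 * ε) (by positivity) fun ζ hζ =>
      (log_pt r0 r1 (min_le_left _ _) hN' (hs ζ hζ) (hp ζ)).2
    rw [e1] at b1
    have b2 := n2_inv T hv h0 r0 r1 hW1
    have b3 : T.n2 ((1 - r : ℂ) • ((1 - star v) * W)) ≤ η * (2 * T.n2 W) := by
      have : (1 - r : ℂ) = (η : ℂ) := by rw [hr]; push_cast; ring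
      rw [T.n2_smul, this, Complex.norm_real, Real.norm_of_nonneg η0.le]
      gcongr
      refine (T.n2_mul_left _ _).trans (mul_le_mul_of_nonneg_right ?_ (T.n2_nonneg _))
      refine (norm_sub_le _ _).trans ?_
      rw [norm_star, CStarRing.norm_of_mem_unitary hv]; norm_num
    have b4 : η * (2 * T.n2 W) < δ / 2 := by
      refine lt_of_pow_lt_pow_left₀ 2 (by positivity) ?_
      have : η * T.n2 W ^ 2 ≤ 1 := by
        rw [hr] at b2; nlinarith [mul_nonneg η0.le (sq_nonneg (T.n2 W))]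
      nlinarith
    have b5 := T.n2_add_le (NormedSpace.exp (cfc p v - star (cfc p v)) - star v -
      (1 - r : ℂ) • ((1 - star v) * W)) ((1 - r : ℂ) • ((1 - star v) * W))
    rw [sub_add_cancel] at b5
    linarith [(T.n2_le_norm _).trans b1, min_le_right (1 / 2) (δ / 8)]

end Vale.Agent.P086
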