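import Mathlib

open scoped InnerProductSpace
open Finset

set_option linter.unusedSimpArgs false
set_option linter.unusedSectionVars false

namespace Vale.Agent.P086
variable {J : Type*} [DecidableEq J] [Fintype J]

noncomputable def tr (g : FreeGroup J) : (FreeGroup J →₀ ℝ) →ₗ[ℝ] (FreeGroup J →₀ ℝ) :=
  Finsupp.lmapDomain ℝ ℝ (fun h => g * h)

lemma tr_tr (g h : FreeGroup J) (μ : FreeGroup J →₀ ℝ) : tr g (tr h μ) = tr (g * h) μ := by
  simp only [tr, Finsupp.lmapDomain_apply, ← Finsupp.mapDomain_comp]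
  congr 1; ext x; simp [mul_assoc]

lemma tr_one (μ : FreeGroup J →₀ ℝ) : tr 1 μ = μ := by
  simp only [tr, Finsupp.lmapDomain_apply, one_mul]; exact Finsupp.mapDomain_id

lemma tr_single (g h : FreeGroup J) (a : ℝ) : tr g (Finsupp.single h a) = Finsupp.single (g * h) a := by
  simp [tr]

def St (a : J × Bool) (n : ℕ) (μ : FreeGroup J →₀ ℝ) : Prop :=
  ∀ γ, μ γ ≠ 0 → ∃ L, γ.toWord = a :: L ∧ L.length = n

lemma St.smul {a : J × Bool} {n : ℕ} {μ : FreeGroup J →₀ ℝ} (h : St a n μ) (c : ℝ) :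
    St a n (c • μ) := fun γ hγ => h γ fun e => hγ (by simp [e])

lemma st_tr (a : J × Bool) (b : Bool) (n : ℕ) (μ : J → FreeGroup J →₀ ℝ)
    (h : ∀ l, St (l, b) n (μ l)) :
    St a (n + 1) (tr (FreeGroup.mk [a]) (∑ l ∈ univ.erase a.1, μ l)) := by
  intro γ hγ
  have h1 := Finsupp.mapDomain_support (Finsupp.mem_support_iff.2 hγ)
  obtain ⟨δ, h2, rfl⟩ := mem_image.1 h1
  have h3 := Finsupp.mem_support_iff.1 h2
  rw [Finsupp.finset_sum_apply] at h3
  obtain ⟨l, hl, h4⟩ := exists_ne_zero_of_sum_ne_zero h3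
  obtain ⟨L, h5, h6⟩ := h l δ h4
  refine ⟨(l, b) :: L, ?_, by simp [h6]⟩
  have r := FreeGroup.isReduced_toWord (x := δ)
  rw [← FreeGroup.mk_toWord (x := δ), h5, FreeGroup.mul_mk, FreeGroup.toWord_mk]
  rw [h5] at r
  exact (FreeGroup.isReduced_cons_cons.2 ⟨fun e => absurd e.symm (ne_of_mem_erase hl), r⟩).reduce_eq

noncomputable def Ee (O : J → FreeGroup J →₀ ℝ) (j : J) : FreeGroup J →₀ ℝ :=
  tr (FreeGroup.of j) (∑ l ∈ univ.erase j, O l)

noncomputable def Oo : ℕ → J → FreeGroup J →₀ ℝ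
  | 0, l => Finsupp.single (FreeGroup.of l)⁻¹ 1
  | k + 1, l => (-(Fintype.card J - 1 : ℝ)⁻¹) •
      tr (FreeGroup.of l)⁻¹ (∑ j ∈ univ.erase l, Ee (Oo k) j)

lemma st_O (k : ℕ) : (∀ l : J, St (l, false) (2 * k) (Oo k l)) ∧
    ∀ j : J, St (j, true) (2 * k + 1) (Ee (Oo k) j) := by
  induction k with
  | zero =>
    have : ∀ l : J, St (l, false) (2 * 0) (Oo 0 l) := fun l γ hγ => by
      obtain ⟨rfl, -⟩ := Finsupp.single_apply_ne_zero.1 hγ
      exact ⟨[], by simp [FreeGroup.invRev], rfl⟩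
    exact ⟨this, fun j => st_tr (j, true) false _ _ this⟩
  | succ k ih =>
    have : ∀ l : J, St (l, false) (2 * (k + 1)) (Oo (k + 1) l) := fun l =>
      (st_tr (l, false) true _ _ ih.2).smul _
    exact ⟨this, fun j => st_tr (j, true) false _ _ this⟩

noncomputable def cc : (FreeGroup J →₀ ℝ) →ₗ[ℝ] (FreeGroup J →₀ ℝ) := ∑ j, tr (FreeGroup.of j)

lemma cc_sum (O : J → FreeGroup J →₀ ℝ) :
    cc (∑ l, O l) = ∑ j, Ee O j + ∑ l, tr (FreeGroup.of l) (O l) := by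
  rw [cc, LinearMap.sum_apply, ← sum_add_distrib]
  refine sum_congr rfl fun j _ => ?_
  rw [Ee, ← map_add, sum_erase_add _ _ (mem_univ j)]

lemma cc_tel (hq : (Fintype.card J - 1 : ℝ) ≠ 0) (m : ℕ) :
    cc (∑ k ∈ range (m + 1), ∑ l : J, Oo k l) =
      (Fintype.card J : ℝ) • Finsupp.single 1 1 + ∑ j, Ee (Oo m) j := by
  induction m with
  | zero =>
    simp only [zero_add, range_one, sum_singleton, cc_sum, Oo, tr_single, mul_inv_cancel,
      sum_const, card_univ, Nat.cast_smul_eq_nsmul, add_comm]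
  | succ m ih =>
    rw [sum_range_succ, map_add, ih, cc_sum]
    have : ∑ l : J, tr (FreeGroup.of l) (Oo (m + 1) l) = -∑ j, Ee (Oo m) j := by
      simp only [Oo, map_smul, tr_tr, mul_inv_cancel, tr_one, ← smul_sum,
        sum_erase_eq_sub (mem_univ _), sum_sub_distrib, sum_const, card_univ]
      rw [← Nat.cast_smul_eq_nsmul ℝ]
      match_scalars
      field_simp
    rw [this]; abel

noncomputable def kap (K : ℕ) : FreeGroup J →₀ ℝ :=
  ((Fintype.card J : ℝ) * K)⁻¹ • ∑ m ∈ range K, ∑ k ∈ range (m + 1), ∑ l : J, Oo k l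

lemma cc_kap (hq : (Fintype.card J - 1 : ℝ) ≠ 0) (hB : (Fintype.card J : ℝ) ≠ 0) {K : ℕ}
    (hK : (K : ℝ) ≠ 0) : cc (kap K) - Finsupp.single 1 1 =
      ((Fintype.card J : ℝ) * K)⁻¹ • ∑ p ∈ range K ×ˢ (univ : Finset J), Ee (Oo p.1) p.2 := by
  rw [kap, map_smul, map_sum, sum_product]
  simp only [cc_tel hq, sum_add_distrib, sum_const, card_range]
  rw [← Nat.cast_smul_eq_nsmul ℝ]
  match_scalars
  · field_simp; ring
  · ring

variable {E : Type*} [NormedAddCommGroup E] [InnerProductSpace ℂ E]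

lemma pyth {ι : Type*} (s : Finset ι) (x : ι → E)
    (h : ∀ i ∈ s, ∀ j ∈ s, i ≠ j → ⟪x i, x j⟫_ℂ = 0) : ‖∑ i ∈ s, x i‖ ^ 2 = ∑ i ∈ s, ‖x i‖ ^ 2 := by
  classical
  rw [@norm_sq_eq_re_inner ℂ, sum_inner, map_sum]
  refine sum_congr rfl fun i hi => ?_
  rw [inner_sum, sum_eq_single_of_mem i hi fun j hj hne => h i hi j hj hne.symm,
    @norm_sq_eq_re_inner ℂ]

noncomputable def evv (ξ : FreeGroup J → E) : (FreeGroup J →₀ ℝ) →ₗ[ℝ] E :=
  Finsupp.linearCombination ℝ ξ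

section
variable {ξ : FreeGroup J → E} {ν : ℝ} (h1 : ∀ g, ‖ξ g‖ = ν)
  (h2 : ∀ g h, g ≠ h → ⟪ξ g, ξ h⟫_ℂ = 0)
include h1 h2

omit h1 in
lemma evv_orth {μ μ' : FreeGroup J →₀ ℝ} (h : ∀ γ, μ γ ≠ 0 → μ' γ ≠ 0 → False) :
    ⟪evv ξ μ, evv ξ μ'⟫_ℂ = 0 := by
  simp only [evv, Finsupp.linearCombination_apply, Finsupp.sum, sum_inner, inner_sum]
  refine sum_eq_zero fun g hg => sum_eq_zero fun g' hg' => ?_
  rw [← Complex.coe_smul, ← Complex.coe_smul, inner_smul_left, inner_smul_right, h2]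
  · simp
  · rintro rfl
    exact h _ (Finsupp.mem_support_iff.1 hg') (Finsupp.mem_support_iff.1 hg)

lemma evv_sq (μ : FreeGroup J →₀ ℝ) : ‖evv ξ μ‖ ^ 2 = μ.sum (fun _ a => a ^ 2 * ν ^ 2) := by
  simp only [evv, Finsupp.linearCombination_apply, Finsupp.sum]
  rw [pyth]
  · exact sum_congr rfl fun g _ => by rw [norm_smul, h1, mul_pow, Real.norm_eq_abs, sq_abs]
  · intro g _ g' _ hne
    rw [← Complex.coe_smul, ← Complex.coe_smul, inner_smul_left, inner_smul_right, h2 _ _ hne]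
    simp

lemma evv_tr (g : FreeGroup J) (μ : FreeGroup J →₀ ℝ) :
    ‖evv ξ (tr g μ)‖ ^ 2 = ‖evv ξ μ‖ ^ 2 := by
  rw [evv_sq h1 h2, evv_sq h1 h2, tr, Finsupp.lmapDomain_apply,
    Finsupp.sum_mapDomain_index_inj (mul_right_injective g)]

omit h1 in
lemma evv_st {ι : Type*} (s : Finset ι) (μ : ι → FreeGroup J →₀ ℝ) (a : ι → J × Bool) (n : ι → ℕ)
    (h : ∀ i, St (a i) (n i) (μ i)) (hi : ∀ i j, a i = a j → n i = n j → i = j) :
    ‖evv ξ (∑ i ∈ s, μ i)‖ ^ 2 = ∑ i ∈ s, ‖evv ξ (μ i)‖ ^ 2 := by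
  rw [map_sum, pyth]
  intro i _ j _ hne
  refine evv_orth h2 fun γ e1 e2 => hne ?_
  obtain ⟨L, a1, a2⟩ := h i γ e1
  obtain ⟨L', a3, a4⟩ := h j γ e2
  rw [a1, List.cons.injEq] at a3
  exact hi i j a3.1 (by rw [← a2, ← a4, a3.2])

lemma norm_O (hq : (Fintype.card J - 1 : ℝ) ≠ 0) (k : ℕ) :
    (∀ l : J, ‖evv ξ (Oo k l)‖ ^ 2 = ν ^ 2) ∧
    ∀ j : J, ‖evv ξ (Ee (Oo k) j)‖ ^ 2 = (Fintype.card J - 1 : ℝ) * ν ^ 2 := by
  have hc : ∀ j : J, (((univ : Finset J).erase j).card : ℝ) = Fintype.card J - 1 := fun j => by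
    rw [cast_card_erase_of_mem (mem_univ j), card_univ]
  have k1 : ∀ k, (∀ l : J, ‖evv ξ (Oo k l)‖ ^ 2 = ν ^ 2) →
      ∀ j : J, ‖evv ξ (Ee (Oo k) j)‖ ^ 2 = (Fintype.card J - 1 : ℝ) * ν ^ 2 := fun k h j => by
    rw [Ee, evv_tr h1 h2, evv_st h2 _ _ (fun l => (l, false)) (fun _ => 2 * k) (st_O k).1
      (fun i j h _ => congrArg Prod.fst h)]
    simp only [h, sum_const, nsmul_eq_mul, hc]
  induction k with
  | zero =>
    have : ∀ l : J, ‖evv ξ (Oo 0 l)‖ ^ 2 = ν ^ 2 := fun l => by simp [Oo, evv, h1]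
    exact ⟨this, k1 _ this⟩
  | succ k ih =>
    have : ∀ l : J, ‖evv ξ (Oo (k + 1) l)‖ ^ 2 = ν ^ 2 := fun l => by
      rw [Oo, map_smul, norm_smul, mul_pow, evv_tr h1 h2, evv_st h2 _ _ (fun l => (l, true))
        (fun _ => 2 * k + 1) (st_O k).2 (fun i j h _ => congrArg Prod.fst h)]
      simp only [ih.2, sum_const, nsmul_eq_mul, hc, Real.norm_eq_abs, sq_abs]
      field_simp
    exact ⟨this, k1 _ this⟩

theorem tree (hB : 2 ≤ Fintype.card J) {K : ℕ} (hK : 1 ≤ K) :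
    ‖evv ξ (kap K)‖ ^ 2 * Fintype.card J ≤ K ^ 2 * ν ^ 2 ∧
    ‖evv ξ (cc (kap K) - Finsupp.single 1 1)‖ ^ 2 * K ≤ ν ^ 2 := by
  have hB' : (2 : ℝ) ≤ Fintype.card J := by exact_mod_cast hB
  have hK' : (1 : ℝ) ≤ K := by exact_mod_cast hK
  have hq : (Fintype.card J - 1 : ℝ) ≠ 0 := by linarith
  set B : ℝ := (Fintype.card J : ℝ) with hBd
  constructor
  · have a1 : ∀ k, ‖evv ξ (∑ l : J, Oo k l)‖ = √(B * ν ^ 2) := fun k => by
      rw [← Real.sqrt_sq (norm_nonneg _), evv_st h2 _ _ (fun l => (l, false)) (fun _ => 2 * k)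
        (st_O k).1 (fun i j h _ => congrArg Prod.fst h)]
      simp only [(norm_O h1 h2 hq k).1, sum_const, nsmul_eq_mul, card_univ, hBd]
    have a2 : ‖evv ξ (∑ m ∈ range K, ∑ k ∈ range (m + 1), ∑ l : J, Oo k l)‖ ≤
        K * (K * √(B * ν ^ 2)) := by
      rw [map_sum]
      refine (norm_sum_le_of_le _ (n := fun _ => K * √(B * ν ^ 2)) fun m hm => ?_).trans (by simp)
      rw [map_sum]
      refine (norm_sum_le_of_le _ fun k _ => (a1 k).le).trans ?_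
      rw [sum_const, card_range, nsmul_eq_mul]
      gcongr
      exact mem_range.1 hm
    rw [kap, map_smul, norm_smul, Real.norm_of_nonneg (by positivity), mul_pow]
    have a3 := pow_le_pow_left₀ (norm_nonneg _) a2 2
    rw [mul_pow, mul_pow, Real.sq_sqrt (by positivity)] at a3
    calc _ ≤ (B * K)⁻¹ ^ 2 * (K ^ 2 * (K ^ 2 * (B * ν ^ 2))) * B := by gcongr
      _ = _ := by field_simp
  · rw [cc_kap hq (by linarith) (by linarith), map_smul, norm_smul,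
      Real.norm_of_nonneg (by positivity), mul_pow, evv_st h2 _ _ (fun p => (p.2, true))
        (fun p => 2 * p.1 + 1) (fun p => (st_O p.1).2 p.2)
        (fun i j h h' => Prod.ext (by omega) (congrArg Prod.fst h))]
    simp only [(norm_O h1 h2 hq _).2, sum_const, nsmul_eq_mul, card_product, card_range, card_univ]
    push_cast
    have : (B * K)⁻¹ ^ 2 * (K * B * ((B - 1) * ν ^ 2)) * K = (B - 1) / B * ν ^ 2 := by field_simp
    rw [this]
    refine mul_le_of_le_one_left (sq_nonneg _) ?_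
    rw [div_le_one (by linarith)]; linarith

end
end Vale.Agent.P086
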