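import Vale.Agent.P086.Flow
import Vale.Agent.P086.Tree
import Vale.Agent.P086.Log
import Vale.Agent.P086.Grp

open scoped ComplexOrder InnerProductSpace ComplexConjugate
open Filter Topology Set

set_option linter.unusedSimpArgs false
set_option linter.unusedSectionVars false

namespace Vale.Agent.P086
open Vale.Agent.P085
variable {M : Type*} [CStarAlgebra M]

lemma Un.pe_pow {ι : Type*} [DecidableEq ι] {ρ : ι → M} (h : Un ρ) (i : ι) (n : ℕ) :
    pe ρ (FreeGroup.of i ^ n) = ρ i ^ n := by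
  simp [h.pe_eq, Un.hom]

lemma pe_aa {ρ ρ' : Fin 4 → M} (h : Un ρ) (h' : Un ρ') (h0 : ρ 0 = ρ' 0) (h1 : ρ 1 = ρ' 1) :
    (∀ j, pe ρ (aa j) = pe ρ' (aa j)) ∧ (ρ 2 = ρ' 2 → ∀ j, pe ρ (zz j) = pe ρ' (zz j)) := by
  have := hom_zz (f := h.hom) (g := h'.hom) (by simp [Un.hom, h0]) (by simp [Un.hom, h1])
  simp only [h.pe_eq, h'.pe_eq]
  exact ⟨fun j => by rw [this.1], fun h2 j => by rw [this.2 (by simp [Un.hom, h2])]⟩

noncomputable def cj (B : ℕ) (ρ : Fin 4 → M) (F : M) (γ : FreeGroup (Fin B)) : M :=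
  pe ρ (ιh B γ) * F * star (pe ρ (ιh B γ))

noncomputable def evM (B : ℕ) (ρ : Fin 4 → M) (F : M) : (FreeGroup (Fin B) →₀ ℝ) →ₗ[ℝ] M :=
  Finsupp.linearCombination ℝ (cj B ρ F)

lemma n2_evM (T : Tr M) (B : ℕ) (ρ : Fin 4 → M) (F : M) (μ : FreeGroup (Fin B) →₀ ℝ) :
    T.n2 (evM B ρ F μ) = ‖evv (fun γ => T.toH (cj B ρ F γ)) μ‖ := by
  simp only [Tr.n2, evM, evv, Finsupp.linearCombination_apply, Finsupp.sum, map_sum]
  rfl

lemma evM_tr {B : ℕ} {ρ : Fin 4 → M} (hu : Un ρ) (F : M) (h : FreeGroup (Fin B))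
    (μ : FreeGroup (Fin B) →₀ ℝ) :
    evM B ρ F (tr h μ) = pe ρ (ιh B h) * evM B ρ F μ * star (pe ρ (ιh B h)) := by
  induction μ using Finsupp.induction_linear with
  | zero => simp
  | add a b ha hb => simp only [map_add, ha, hb, mul_add, add_mul]
  | single g a => simp [tr_single, evM, cj, hu.pe_mul, mul_assoc]

lemma cj_orth (T : Tr M) {B : ℕ} {ρ : Fin 4 → M} (hu : Un ρ) (hr : Reg T ρ) {F : M}
    (hF : F ∈ Submodule.span ℂ {a | ∃ n : ℤ, n ≠ 0 ∧ a = pe ρ (FreeGroup.of 3 ^ n)})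
    (γ γ' : FreeGroup (Fin B)) (h : γ ≠ γ') :
    ⟪T.toH (cj B ρ F γ), T.toH (cj B ρ F γ')⟫_ℂ = 0 := by
  have k : ∀ a ∈ Submodule.span ℂ {a | ∃ n : ℤ, n ≠ 0 ∧ a = pe ρ (FreeGroup.of 3 ^ n)},
      ∀ b ∈ Submodule.span ℂ {a | ∃ n : ℤ, n ≠ 0 ∧ a = pe ρ (FreeGroup.of 3 ^ n)},
      T.τ (star a * (pe ρ (ιh B (γ⁻¹ * γ')) * b * star (pe ρ (ιh B (γ⁻¹ * γ'))))) = 0 := by
    intro a ha b hb
    induction ha using Submodule.span_induction with
    | zero => simp
    | add x y _ _ hx hy => simp only [star_add, add_mul, map_add, hx, hy, add_zero]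
    | smul c x _ hx => simp only [star_smul, smul_mul_assoc, map_smul, hx, smul_zero]
    | mem x hx =>
      obtain ⟨n, hn, rfl⟩ := hx
      induction hb using Submodule.span_induction with
      | zero => simp
      | add x y _ _ hx hy => simp only [mul_add, add_mul, map_add, hx, hy, add_zero]
      | smul c x _ hx => simp only [mul_smul_comm, smul_mul_assoc, map_smul, hx, smul_zero]
      | mem x hx =>
        obtain ⟨m, -, rfl⟩ := hx
        have := hr _ (grp_ne (γ := γ⁻¹ * γ') (fun e => h (inv_mul_eq_one.1 e)) (neg_ne_zero.2 hn) m)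
        rwa [hu.pe_mul, hu.pe_mul, hu.pe_mul, zpow_neg, hu.pe_inv, hu.pe_inv] at this
  have := k F hF F hF
  rw [T.inner_toH, ← this]
  simp only [cj, map_mul, map_inv, hu.pe_mul, hu.pe_inv, star_mul, star_star, mul_assoc]
  rw [T.tr]
  simp only [mul_assoc]

lemma fS_eq {B N : ℕ} {ρ : Fin 4 → M} (hu : Un ρ) (f : ℕ → ℂ) (κ : FreeGroup (Fin B) →₀ ℝ) {A : M}
    (hA : A = ∑ j ∈ Finset.range N, f j • ρ 3 ^ (j + 1)) :
    fS (κ.support ×ˢ Finset.range N) (fun p => κ p.1 * f p.2)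
      (fun p => ιh B p.1 * FreeGroup.of 3 ^ ((p.2 + 1 : ℕ) : ℤ) * (ιh B p.1)⁻¹) ρ =
      evM B ρ (A - star A) κ := by
  have e : fA (κ.support ×ˢ Finset.range N) (fun p => κ p.1 * f p.2)
      (fun p => ιh B p.1 * FreeGroup.of 3 ^ ((p.2 + 1 : ℕ) : ℤ) * (ιh B p.1)⁻¹) ρ =
      ∑ γ ∈ κ.support, κ γ • cj B ρ A γ := by
    rw [fA, Finset.sum_product]
    refine Finset.sum_congr rfl fun γ _ => ?_
    simp only [cj, hA, Finset.mul_sum, Finset.sum_mul, Finset.smul_sum, hu.pe_mul, hu.pe_inv,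
      zpow_natCast, hu.pe_pow, mul_smul_comm, smul_mul_assoc, mul_smul, Complex.coe_smul]
  rw [fS, e, star_sum, ← Finset.sum_sub_distrib, evM, Finsupp.linearCombination_apply, Finsupp.sum]
  refine Finset.sum_congr rfl fun γ _ => ?_
  simp [cj, star_smul, mul_sub, sub_mul, smul_sub, mul_assoc]

lemma deriv_zz {ρ : Fin 4 → M} (hρ : Un ρ) {α : ℝ → M} {S : M} {I : Set ℝ} {t : ℝ} (ht : t ∈ I)
    (hu : ∀ t ∈ I, α t ∈ unitary M) (hα : HasDerivWithinAt α (S * α t) I t) (B : ℕ) :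
    HasDerivWithinAt (fun t => pe (Function.update ρ 2 (α t)) (zz B))
      ((∑ j ∈ Finset.range B, pe (Function.update ρ 2 (α t)) (uu j) * S *
        star (pe (Function.update ρ 2 (α t)) (uu j))) * pe (Function.update ρ 2 (α t)) (zz B)) I t := by
  induction B with
  | zero => simpa [zz, pe_one] using hasDerivWithinAt_const t I (1 : M)
  | succ B ih =>
    have e : ∀ t ∈ I, pe (Function.update ρ 2 (α t)) (zz (B + 1)) =
        pe (Function.update ρ 2 (α t)) (zz B) * pe ρ (aa B) * α t := fun t ht => by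
      have h := hρ.update 2 (hu t ht)
      rw [zz, h.pe_mul, h.pe_mul, h.pe_of, (pe_aa h hρ (by simp) (by simp)).1]; simp
    have h := hρ.update 2 (hu t ht)
    have e2 : pe (Function.update ρ 2 (α t)) (uu B) =
        pe (Function.update ρ 2 (α t)) (zz B) * pe ρ (aa B) := by
      rw [uu, h.pe_mul, (pe_aa h hρ (by simp) (by simp)).1]
    refine (((ih.mul_const (pe ρ (aa B))).mul hα).congr e (e t ht)).congr_deriv ?_
    rw [Finset.sum_range_succ, add_mul, e t ht, ← e2, mul_assoc (_ * S), ← mul_assoc (star _),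
      Unitary.star_mul_self_of_mem (h.pe_mem _), one_mul, e2]
    simp only [mul_assoc]

noncomputable def toHL (T : Tr M) : M →L[ℝ] T.H :=
  (T.toH.toLinearMap.mkContinuous 1 fun x => by
    rw [one_mul]; exact T.n2_le_norm x).restrictScalars ℝ

lemma n2_mvt (T : Tr M) {g g' : ℝ → M} {C : ℝ}
    (h : ∀ t ∈ Icc (0 : ℝ) 1, HasDerivWithinAt g (g' t) (Icc 0 1) t)
    (hC : ∀ t ∈ Icc (0 : ℝ) 1, T.n2 (g' t) ≤ C) : T.n2 (g 1 - g 0) ≤ C := by
  have := norm_image_sub_le_of_norm_deriv_le_segment_01' (f := fun t => toHL T (g t))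
    (fun t ht => (toHL T).hasFDerivAt.comp_hasDerivWithinAt t (h t ht))
    (fun t ht => hC t (Ico_subset_Icc_self ht))
  rw [← map_sub] at this
  exact this

theorem key (T : Tr M) {ρ : Fin 4 → M} (hu : Un ρ) (hr : Reg T ρ) {δ : ℝ} (hδ : 0 < δ) :
    ∃ (ρ' : Fin 4 → M) (B : ℕ), Un ρ' ∧ Reg T ρ' ∧ ρ' 0 = ρ 0 ∧ ρ' 1 = ρ 1 ∧
      T.n2 (ρ' 2 - ρ 2) ≤ δ ∧ T.n2 (pe ρ' (zz B) - ρ 3) ≤ δ ∧
      ∀ P : StarSubalgebra ℂ M, IsClosed (P : Set M) → (∀ i, ρ' i ∈ P) → ∀ i, ρ i ∈ P := by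
  obtain ⟨K, hK⟩ := exists_nat_gt (max 1 (400 / δ ^ 2))
  obtain ⟨B, hB⟩ := exists_nat_gt (max 2 (K ^ 2 * 100 / δ ^ 2))
  have K1 : 1 ≤ K := by exact_mod_cast ((le_max_left _ _).trans hK.le)
  have B2 : 2 ≤ B := by exact_mod_cast ((le_max_left _ _).trans hB.le)
  have hK' := (div_lt_iff₀ (by positivity)).1 ((le_max_right _ _).trans_lt hK)
  have hB' := (div_lt_iff₀ (by positivity)).1 ((le_max_right _ _).trans_lt hB)
  set v := pe ρ (zz B) * star (ρ 3) with hv
  have vu : v ∈ unitary M := mul_mem (hu.pe_mem _) (Unitary.star_mem (hu 3))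
  set ρ1 := Function.update ρ 3 v with hρ1
  have u1 : Un ρ1 := hu.update 3 vu
  have r1 : Reg T ρ1 := by
    have : u1.hom = hu.hom.comp (σz B) := by
      refine FreeGroup.ext_hom _ _ fun i => Subtype.ext ?_
      rw [MonoidHom.comp_apply, ← u1.pe_eq, ← hu.pe_eq, u1.pe_of]
      by_cases h : i = 3
      · subst h
        simp [σz, hρ1, hv, hu.pe_mul, hu.pe_inv, hu.pe_of]
      · simp [σz, hρ1, h, hu.pe_of]
    intro g hg
    rw [u1.pe_eq, this, MonoidHom.comp_apply, ← hu.pe_eq]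
    exact hr _ fun e => hg (σz_inj B (by rw [e, map_one]))
  have v3 : ρ1 3 = v := by simp [hρ1]
  obtain ⟨N, f, A, hA, hF, hE⟩ := exists_log T vu (fun n hn => by
    rw [← v3, ← u1.pe_pow]
    refine r1 _ ?_
    simpa using grp_ne (B := 1) (γ := FreeGroup.of 0) (FreeGroup.of_ne_one _)
      (n := n) (by simpa using hn) 0) (half_pos hδ)
  obtain ⟨α, a0, hα, hgen⟩ := flow ((kap K).support ×ˢ Finset.range N) (fun p => kap K p.1 * f p.2)
    (fun p => ιh B p.1 * FreeGroup.of 3 ^ ((p.2 + 1 : ℕ) : ℤ) * (ιh B p.1)⁻¹) 2 T (v := 3)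
    (by decide) (fun _ _ => ⟨_, _, rfl⟩) u1 r1
  set F := A - star A with hFd
  have ut : ∀ t ∈ Icc (0 : ℝ) 1, Un (Function.update ρ1 2 (α t)) := fun t ht =>
    u1.update 2 (hα t ht).1
  have hd : ∀ t ∈ Icc (0 : ℝ) 1, HasDerivWithinAt α
      (evM B (Function.update ρ1 2 (α t)) F (kap K) * α t) (Icc 0 1) t := fun t ht => by
    have := (hα t ht).2.2
    rwa [fS_eq (ut t ht) f (kap K) (A := A) (by simpa [v3] using hA)] at this
  have hT : ∀ t ∈ Icc (0 : ℝ) 1, T.n2 (evM B (Function.update ρ1 2 (α t)) F (kap K)) < δ ∧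
      T.n2 (evM B (Function.update ρ1 2 (α t)) F (cc (kap K) - Finsupp.single 1 1)) < δ / 2 := by
    intro t ht
    have h := ut t ht
    have mA : ∀ b : Bool, (if b then A else star A) ∈ Submodule.span ℂ
        {a | ∃ n : ℤ, n ≠ 0 ∧ a = pe (Function.update ρ1 2 (α t)) (FreeGroup.of 3 ^ n)} := by
      intro b
      cases b
      · simp only [hA, star_sum, star_smul, Bool.false_eq_true, if_false]
        refine sum_mem fun j _ => Submodule.smul_mem _ _ (Submodule.subset_span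
          ⟨-((j + 1 : ℕ) : ℤ), by omega, ?_⟩)
        rw [zpow_neg, h.pe_inv, zpow_natCast, h.pe_pow]; simp [v3]
      · simp only [hA, if_true]
        refine sum_mem fun j _ => Submodule.smul_mem _ _ (Submodule.subset_span
          ⟨((j + 1 : ℕ) : ℤ), by omega, ?_⟩)
        rw [zpow_natCast, h.pe_pow]; simp [v3]
    have := tree (ξ := fun γ => T.toH (cj B (Function.update ρ1 2 (α t)) F γ)) (ν := T.n2 F)
      (fun g => by
        change T.n2 _ = _
        rw [cj, T.n2_unit_right (by simpa using Unitary.star_mul_self_of_mem (h.pe_mem _)),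
          T.n2_unit_left (Unitary.star_mul_self_of_mem (h.pe_mem _))])
      (cj_orth T h (hα t ht).2.1 (sub_mem (mA true) (mA false))) (by simpa using B2) K1
    rw [← n2_evM, ← n2_evM, Fintype.card_fin] at this
    have n1 : T.n2 F ^ 2 ≤ 100 := by nlinarith [(T.n2_le_norm F).trans hF, T.n2_nonneg F]
    have B0 : (0 : ℝ) < B := by positivity
    have K0 : (0 : ℝ) < K := by positivity
    constructor
    · refine lt_of_pow_lt_pow_left₀ 2 hδ.le (lt_of_mul_lt_mul_right (this.1.trans_lt ?_) B0.le)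
      nlinarith [mul_le_mul_of_nonneg_left n1 (sq_nonneg (K : ℝ))]
    · refine lt_of_pow_lt_pow_left₀ 2 (half_pos hδ).le
        (lt_of_mul_lt_mul_right (this.2.trans_lt ?_) K0.le)
      nlinarith
  have o1 : (1 : ℝ) ∈ Icc (0 : ℝ) 1 := right_mem_Icc.2 zero_le_one
  refine ⟨Function.update ρ1 2 (α 1), B, ut 1 o1, (hα 1 o1).2.1, by simp [hρ1], by simp [hρ1],
    ?_, ?_, fun P hP h => ?_⟩
  · have := n2_mvt T hd (C := δ) fun t ht => by
      rw [T.n2_unit_right (Unitary.mul_star_self_of_mem (hα t ht).1)]; exact (hT t ht).1.le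
    simpa [a0, hρ1] using this
  · have Fs : star F = -F := by simp [hFd]
    have eu : ∀ s : ℝ, NormedSpace.exp (s • F) ∈ unitary M := fun s => by
      let +nondep : NormedAlgebra ℚ M := .restrictScalars ℚ ℂ M
      exact NormedSpace.exp_mem_unitary_of_mem_skewAdjoint (by
        rw [skewAdjoint.mem_iff, star_smul, Fs]; simp)
    have := n2_mvt T (C := δ / 2)
      (g := fun t => NormedSpace.exp ((1 - t) • F) * pe (Function.update ρ1 2 (α t)) (zz B))
      (g' := fun t => NormedSpace.exp ((1 - t) • F) *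
        evM B (Function.update ρ1 2 (α t)) F (cc (kap K) - Finsupp.single 1 1) *
        pe (Function.update ρ1 2 (α t)) (zz B)) (fun t ht => by
      have d1 := (hasDerivAt_exp_smul_const (𝕂 := ℝ) F (1 - t)).scomp t
        ((hasDerivAt_id t).const_sub 1)
      refine (d1.hasDerivWithinAt.mul (deriv_zz u1 ht (fun t ht => (hα t ht).1) (hd t ht) B)
        ).congr_deriv ?_
      have e : evM B (Function.update ρ1 2 (α t)) F (cc (kap K)) = ∑ j ∈ Finset.range B,
          pe (Function.update ρ1 2 (α t)) (uu j) * evM B (Function.update ρ1 2 (α t)) F (kap K) *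
          star (pe (Function.update ρ1 2 (α t)) (uu j)) := by
        rw [cc, LinearMap.sum_apply, map_sum, Finset.sum_range]
        refine Finset.sum_congr rfl fun j _ => ?_
        rw [evM_tr (ut t ht)]; simp [ιh]
      have e2 : evM B (Function.update ρ1 2 (α t)) F (Finsupp.single 1 1) = F := by
        simp [evM, cj, pe_one]
      rw [map_sub, e, e2]
      simp only [Function.comp, id, neg_smul, one_smul]
      noncomm_ring) (fun t ht => by
      rw [T.n2_unit_right (Unitary.mul_star_self_of_mem ((ut t ht).pe_mem _)),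
        T.n2_unit_left (Unitary.star_mul_self_of_mem (eu _))]
      exact (hT t ht).2.le)
    have o0 : (0 : ℝ) ∈ Icc (0 : ℝ) 1 := left_mem_Icc.2 zero_le_one
    rw [(pe_aa (ut 0 o0) hu (by simp [hρ1]) (by simp [hρ1])).2 (by simp [hρ1, a0])] at this
    simp only [sub_self, zero_smul, NormedSpace.exp_zero, one_mul, sub_zero, one_smul] at this
    have e : ρ 3 = star v * pe ρ (zz B) := by
      rw [hv, star_mul, star_star, mul_assoc, Unitary.star_mul_self_of_mem (hu.pe_mem _), mul_one]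
    have b := T.n2_tri (pe (Function.update ρ1 2 (α 1)) (zz B)) (NormedSpace.exp F * pe ρ (zz B))
      (ρ 3)
    rw [e, ← sub_mul, T.n2_unit_right (Unitary.mul_star_self_of_mem (hu.pe_mem _)), ← e] at b
    linarith
  · have h1 := hgen P hP h
    have h2 : pe ρ (zz B) ∈ P := by
      rw [(pe_aa hu u1 (by simp [hρ1]) (by simp [hρ1])).2 (by simp [hρ1])]
      exact evL_mem h1 _
    intro i
    by_cases hi : i = 3
    · have := mul_mem (star_mem (h1 3)) h2
      rwa [v3, hv, star_mul, star_star, mul_assoc, Unitary.star_mul_self_of_mem (hu.pe_mem _),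
        mul_one, ← hi] at this
    · simpa [hρ1, hi] using h1 i

end Vale.Agent.P086
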