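import Vale.Agent.P085.Res

open scoped ComplexOrder InnerProductSpace ComplexConjugate NNReal
open Filter Topology Set

set_option linter.unusedSimpArgs false
set_option linter.unusedSectionVars false

namespace Vale.Agent.P086
open Vale.Agent.P085

lemma ode_ex {E : Type*} [NormedAddCommGroup E] [NormedSpace ℝ E] [CompleteSpace E] {f : E → E}
    {K L : ℝ≥0} (hK : LipschitzWith K f) (hL : ∀ x, ‖f x‖ ≤ L) (t0 : Icc (0 : ℝ) 1) (x0 : E) :
    ∃ α : ℝ → E, α t0 = x0 ∧ ∀ t ∈ Icc (0 : ℝ) 1, HasDerivWithinAt α (f (α t)) (Icc 0 1) t := by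
  have h : IsPicardLindelof (fun _ => f) t0 x0 L 0 L K :=
    ⟨fun _ _ => hK.lipschitzOnWith, fun _ _ => continuousOn_const, fun _ _ x _ => hL x, by
      have h1 : max (1 - (t0 : ℝ)) (t0 - 0) ≤ 1 := max_le (by linarith [t0.2.1]) (by linarith [t0.2.2])
      simpa using mul_le_of_le_one_right L.2 h1⟩
  exact h.exists_eq_forall_mem_Icc_hasDerivWithinAt₀

variable {M : Type*} [CStarAlgebra M]

lemma ode_back {f : M → M} {K L : ℝ≥0} (hK : LipschitzWith K f) (hL : ∀ x, ‖f x‖ ≤ L)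
    {α : ℝ → M} (hα : ∀ t ∈ Icc (0 : ℝ) 1, HasDerivWithinAt α (f (α t)) (Icc 0 1) t)
    (P : StarSubalgebra ℂ M) (hP : IsClosed (P : Set M)) (hf : ∀ x ∈ P, f x ∈ P)
    (h1 : α 1 ∈ P) : α 0 ∈ P := by
  obtain ⟨β, b1, b2⟩ := ode_ex (E := P) (f := fun x => ⟨f x, hf x x.2⟩) (K := K) (L := L)
    (fun x y => hK x y) (fun x => hL x) ⟨1, by simp⟩ ⟨α 1, h1⟩
  let ι : P →L[ℝ] M := (LinearMap.mkContinuous P.subtype.toLinearMap 1
    (fun x => by simp)).restrictScalars ℝ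
  have b3 : ∀ t ∈ Icc (0 : ℝ) 1, HasDerivWithinAt (fun t => (β t : M)) (f (β t)) (Icc 0 1) t :=
    fun t ht => ι.hasFDerivAt.comp_hasDerivWithinAt t (b2 t ht)
  have := ODE_solution_unique_of_mem_Icc_left (v := fun _ => f) (s := fun _ => univ) (K := K)
    (f := α) (g := fun t => (β t : M)) (a := 0) (b := 1)
    (fun _ _ => hK.lipschitzOnWith) (fun t ht => (hα t ht).continuousWithinAt)
    (fun t ht => (hα t (Ioc_subset_Icc_self ht)).mono_of_mem_nhdsWithin (Icc_mem_nhdsLE_of_mem ht))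
    (fun _ _ => trivial) (fun t ht => (b3 t ht).continuousWithinAt)
    (fun t ht => (b3 t (Ioc_subset_Icc_self ht)).mono_of_mem_nhdsWithin (Icc_mem_nhdsLE_of_mem ht))
    (fun _ _ => trivial) (congrArg Subtype.val b1).symm
  rw [this (left_mem_Icc.2 zero_le_one)]
  exact (β 0).2

/-- bounded Lipschitz maps -/
def BL (f : M → M) : Prop := ∃ K L : ℝ≥0, LipschitzWith K f ∧ ∀ x, ‖f x‖ ≤ L

lemma BL.const (c : M) : BL (fun _ => c) := ⟨0, ‖c‖₊, LipschitzWith.const c, fun _ => le_rfl⟩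

lemma BL.add {f g : M → M} (hf : BL f) (hg : BL g) : BL (fun x => f x + g x) := by
  obtain ⟨K, L, h1, h2⟩ := hf
  obtain ⟨K', L', h3, h4⟩ := hg
  exact ⟨K + K', L + L', h1.add h3, fun x => (norm_add_le _ _).trans (add_le_add (h2 x) (h4 x))⟩

lemma BL.mul {f g : M → M} (hf : BL f) (hg : BL g) : BL (fun x => f x * g x) := by
  obtain ⟨K, L, h1, h2⟩ := hf
  obtain ⟨K', L', h3, h4⟩ := hg
  refine ⟨L * K' + K * L', L * L', LipschitzWith.of_dist_le_mul fun x y => ?_, fun x =>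
    (norm_mul_le _ _).trans (mul_le_mul (h2 x) (h4 x) (norm_nonneg _) L.2)⟩
  have a1 := h1.dist_le_mul x y
  have a2 := h3.dist_le_mul x y
  rw [dist_eq_norm] at a1 a2 ⊢
  have e : f x * g x - f y * g y = f x * (g x - g y) + (f x - f y) * g y := by noncomm_ring
  rw [e]
  have b1 := (norm_mul_le _ _).trans (mul_le_mul (h2 x) a2 (norm_nonneg _) L.2)
  have b2 := (norm_mul_le _ _).trans (mul_le_mul a1 (h4 y) (norm_nonneg _) (by positivity))
  refine (norm_add_le _ _).trans ((add_le_add b1 b2).trans (le_of_eq ?_))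
  push_cast; ring

lemma BL.str {f : M → M} (hf : BL f) : BL (fun x => star (f x)) := by
  obtain ⟨K, L, h1, h2⟩ := hf
  refine ⟨K, L, LipschitzWith.of_dist_le_mul fun x y => ?_, fun x => by simpa using h2 x⟩
  have a1 := h1.dist_le_mul x y
  rwa [dist_eq_norm, ← norm_star, star_sub, ← dist_eq_norm] at a1

lemma BL.smul {f : M → M} (hf : BL f) (c : ℂ) : BL (fun x => c • f x) := by
  simpa using (BL.const (c • (1 : M))).mul hf

lemma BL.sub {f g : M → M} (hf : BL f) (hg : BL g) : BL (fun x => f x - g x) := by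
  simpa [sub_eq_add_neg] using hf.add (hg.smul (-1))

lemma BL.sum {R : Type*} (s : Finset R) {f : R → M → M} (hf : ∀ r, BL (f r)) :
    BL (fun x => ∑ r ∈ s, f r x) := by
  classical
  induction s using Finset.induction_on with
  | empty => simpa using BL.const 0
  | insert r s hr ih => simpa only [Finset.sum_insert hr] using (hf r).add ih

noncomputable def rad (x : M) : M := (((max 1 ‖x‖)⁻¹ : ℝ) : ℂ) • x

lemma rad_eq {x : M} (h : ‖x‖ ≤ 1) : rad x = x := by simp [rad, max_eq_left h]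

lemma bl_rad : BL (rad : M → M) := by
  have hn : ∀ x : M, ‖rad x‖ = (max 1 ‖x‖)⁻¹ * ‖x‖ := fun x => by
    rw [rad, norm_smul, Complex.norm_real, Real.norm_of_nonneg (by positivity)]
  have h1 : ∀ x : M, ‖rad x‖ ≤ 1 := fun x => by
    rw [hn, inv_mul_le_iff₀ (by positivity), mul_one]; exact le_max_right _ _
  refine ⟨2, 1, LipschitzWith.of_dist_le_mul fun x y => ?_, h1⟩
  rw [dist_eq_norm, dist_eq_norm]
  have hx : 1 ≤ max 1 ‖x‖ := le_max_left _ _
  have hy : 1 ≤ max 1 ‖y‖ := le_max_left _ _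
  have e : rad x - rad y = (((max 1 ‖x‖)⁻¹ : ℝ) : ℂ) • (x - y) +
      (((max 1 ‖x‖)⁻¹ * (max 1 ‖y‖ - max 1 ‖x‖) : ℝ) : ℂ) • rad y := by
    simp only [rad, smul_smul, smul_sub]
    have : (((max 1 ‖x‖)⁻¹ * (max 1 ‖y‖ - max 1 ‖x‖) : ℝ) : ℂ) * (((max 1 ‖y‖)⁻¹ : ℝ) : ℂ) =
        (((max 1 ‖x‖)⁻¹ : ℝ) : ℂ) - (((max 1 ‖y‖)⁻¹ : ℝ) : ℂ) := by
      rw [← Complex.ofReal_mul, ← Complex.ofReal_sub]
      congr 1
      field_simp
    rw [this]; module
  have a1 : |max 1 ‖y‖ - max 1 ‖x‖| ≤ ‖x - y‖ := by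
    rw [max_comm 1, max_comm 1]
    refine (abs_max_sub_max_le_abs _ _ _).trans ?_
    rw [norm_sub_rev]; exact abs_norm_sub_norm_le _ _
  have a2 : (max 1 ‖x‖)⁻¹ ≤ 1 := inv_le_one_of_one_le₀ hx
  have a3 : 0 ≤ (max 1 ‖x‖)⁻¹ := by positivity
  rw [e]
  refine (norm_add_le _ _).trans ?_
  rw [norm_smul, norm_smul, Complex.norm_real, Complex.norm_real, Real.norm_of_nonneg a3,
    Real.norm_eq_abs, abs_mul, abs_of_nonneg a3]
  have b1 : (max 1 ‖x‖)⁻¹ * ‖x - y‖ ≤ 1 * ‖x - y‖ := by gcongr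
  have b2 : (max 1 ‖x‖)⁻¹ * |max 1 ‖y‖ - max 1 ‖x‖| * ‖rad y‖ ≤ 1 * ‖x - y‖ * 1 := by
    gcongr; exact h1 y
  push_cast; linarith

variable {ι : Type*} [DecidableEq ι]

def lt1 (ρ : ι → M) (a : ι × Bool) : M := if a.2 then ρ a.1 else star (ρ a.1)

def evL (ρ : ι → M) : List (ι × Bool) → M
  | [] => 1
  | a :: L => lt1 ρ a * evL ρ L

def pe (ρ : ι → M) (g : FreeGroup ι) : M := evL ρ g.toWord

def Un (ρ : ι → M) : Prop := ∀ i, ρ i ∈ unitary M

noncomputable def Un.hom {ρ : ι → M} (h : Un ρ) : FreeGroup ι →* unitary M :=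
  FreeGroup.lift fun i => ⟨ρ i, h i⟩

namespace Un
variable {ρ : ι → M} (h : Un ρ)
include h

lemma evL_eq (L : List (ι × Bool)) : evL ρ L = h.hom (FreeGroup.mk L) := by
  induction L with
  | nil => simp [evL, ← FreeGroup.one_eq_mk]
  | cons a L ih =>
    have : FreeGroup.mk (a :: L) = FreeGroup.mk [a] * FreeGroup.mk L := rfl
    rw [this, map_mul, evL, ih]
    obtain ⟨i, e⟩ := a
    cases e <;> simp [hom, lt1]
    rfl

lemma pe_eq (g : FreeGroup ι) : pe ρ g = h.hom g := by rw [pe, h.evL_eq, FreeGroup.mk_toWord]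

lemma pe_mk (L : List (ι × Bool)) : pe ρ (FreeGroup.mk L) = evL ρ L := by rw [h.pe_eq, h.evL_eq]

lemma pe_mul (g k : FreeGroup ι) : pe ρ (g * k) = pe ρ g * pe ρ k := by simp [h.pe_eq]

lemma pe_inv (g : FreeGroup ι) : pe ρ g⁻¹ = star (pe ρ g) := by
  simp only [h.pe_eq, map_inv]; rfl

lemma pe_of (i : ι) : pe ρ (FreeGroup.of i) = ρ i := by simp [h.pe_eq, hom]

lemma pe_mem (g : FreeGroup ι) : pe ρ g ∈ unitary M := by rw [h.pe_eq]; exact (h.hom g).2

lemma evL_mem (L : List (ι × Bool)) : evL ρ L ∈ unitary M := by rw [h.evL_eq]; exact (h.hom _).2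

lemma lt1_eq (a : ι × Bool) : lt1 ρ a = pe ρ (FreeGroup.mk [a]) := by simp [h.pe_mk, evL]

lemma lt1_mem (a : ι × Bool) : lt1 ρ a ∈ unitary M := by rw [h.lt1_eq]; exact h.pe_mem _

lemma pe_zpow (i : ι) (n : ℤ) :
    pe ρ (FreeGroup.of i ^ n) = (((⟨ρ i, h i⟩ : unitary M) ^ n : unitary M) : M) := by
  simp [h.pe_eq, hom]

lemma update (i : ι) {u : M} (hu : u ∈ unitary M) : Un (Function.update ρ i u) := fun j => by
  by_cases e : j = i
  · subst e; simpa using hu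
  · rw [Function.update_of_ne e]; exact h j

end Un

lemma pe_one (ρ : ι → M) : pe ρ 1 = 1 := by simp [pe, evL]

lemma evL_mem {P : StarSubalgebra ℂ M} {ρ : ι → M} (h : ∀ i, ρ i ∈ P) (L : List (ι × Bool)) :
    evL ρ L ∈ P := by
  induction L with
  | nil => exact one_mem _
  | cons a L ih =>
    refine mul_mem ?_ ih
    unfold lt1; split_ifs
    · exact h _
    · exact star_mem (h _)

lemma bl_evL (ρ : ι → M) (y : ι) {g : M → M} (hg : BL g) (L : List (ι × Bool)) :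
    BL (fun x => evL (Function.update ρ y (g x)) L) := by
  induction L with
  | nil => exact BL.const 1
  | cons a L ih =>
    refine BL.mul ?_ ih
    obtain ⟨i, e⟩ := a
    by_cases hi : i = y
    · subst hi
      cases e
      · simpa [lt1] using hg.str
      · simpa [lt1] using hg
    · simpa [lt1, hi] using BL.const _

end Vale.Agent.P086
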